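import Vale.Agent.P254.Polytope

open MeasureTheory Set Matrix

namespace Vale.Agent.P254

variable {n : ℕ}

section affine

variable {K : Set (Fin n → ℝ)}

/-- Affine invariance of `det Σ / vol²`. -/
theorem fval_affine_image (hK : IsCompact K) (hv : 0 < vol K) (f : (Fin n → ℝ) ≃ₗ[ℝ] (Fin n → ℝ))
    (c : Fin n → ℝ) : fval ((fun x => f x + c) '' K) = fval K := by
  classical
  set A : (Fin n → ℝ) → (Fin n → ℝ) := fun x => f x + c with hA
  set F : (Fin n → ℝ) →L[ℝ] (Fin n → ℝ) := LinearMap.toContinuousLinearMap f.toLinearMap with hF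
  have hAinj : InjOn A K := by
    intro x _ y _ h
    have : f x = f y := by simpa [hA] using h
    exact f.injective this
  have hder : ∀ x ∈ K, HasFDerivWithinAt A F K x := by
    intro x _
    have h1 : HasFDerivAt (fun x => F x) F x := F.hasFDerivAt
    have h2 : HasFDerivAt A F x := h1.add_const c
    exact h2.hasFDerivWithinAt
  have hmeas : MeasurableSet K := hK.measurableSet
  have hint : ∀ g : (Fin n → ℝ) → ℝ,
      ∫ y in A '' K, g y = ∫ x in K, |F.det| • g (A x) :=
    fun g => integral_image_eq_integral_abs_det_fderiv_smul volume hmeas hder hAinj g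
  set M : Matrix (Fin n) (Fin n) ℝ := LinearMap.toMatrix' f.toLinearMap with hM
  have hdet : F.det = M.det := by
    rw [hM, LinearMap.det_toMatrix']
    rfl
  have hdetne : M.det ≠ 0 := by
    rw [← hdet]
    have : F.det = LinearMap.det f.toLinearMap := rfl
    rw [this]
    exact (LinearEquiv.isUnit_det' f).ne_zero
  set δ := |M.det| with hδ
  have hδpos : 0 < δ := abs_pos.2 hdetne
  have hvol : vol (A '' K) = δ * vol K := by
    have h1 := hint (fun _ => 1)
    simp only [setIntegral_const, smul_eq_mul, mul_one, hdet] at h1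
    have h2 : volume.real (A '' K) = vol (A '' K) := rfl
    have h3 : volume.real K = vol K := rfl
    rw [h2, h3] at h1
    rw [h1, mul_comm]
  have havg : ∀ g : (Fin n → ℝ) → ℝ, avg (A '' K) g = avg K (fun x => g (A x)) := by
    intro g
    unfold avg
    rw [hint, hvol, hdet]
    simp only [smul_eq_mul]
    rw [integral_const_mul, ← hδ]
    field_simp
  have hAi : ∀ x i, A x i = ∑ k, M i k * x k + c i := by
    intro x i
    have : f x = M *ᵥ x := by
      rw [hM, LinearMap.toMatrix'_mulVec]
      rfl
    simp only [hA, Pi.add_apply, this, mulVec, dotProduct]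
  have hcen : ∀ i, centroid (A '' K) i = ∑ k, M i k * centroid K k + c i := by
    intro i
    rw [centroid_eq_avg, havg]
    have h1 : (fun x => A x i) = fun x => ∑ k, M i k * x k + c i := by
      funext x; exact hAi x i
    have hc1 : ∀ k, Continuous (fun x : Fin n → ℝ => M i k * x k) :=
      fun k => continuous_const.mul (continuous_apply k)
    have hc2 : Continuous (fun x : Fin n → ℝ => ∑ k, M i k * x k) :=
      continuous_finsetSum _ fun k _ => hc1 k
    rw [h1, avg_add hK hc2 continuous_const, avg_const hv, avg_sum hK Finset.univ hc1]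
    congr 1
    refine Finset.sum_congr rfl fun k _ => ?_
    rw [avg_const_mul]
    rfl
  have hcov : covMat (A '' K) = M * covMat K * Mᵀ := by
    ext i j
    rw [covMat_eq_avg, havg]
    have hX : ∀ k : Fin n, Continuous (fun x : Fin n → ℝ => x k - centroid K k) :=
      fun k => (continuous_apply k).sub continuous_const
    have h1 : (fun x => (A x i - centroid (A '' K) i) * (A x j - centroid (A '' K) j))
        = fun x => ∑ k, ∑ l, (M i k * M j l) * ((x k - centroid K k) * (x l - centroid K l)) := by
      funext x
      rw [hcen, hcen, hAi, hAi]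
      have e1 : (∑ k, M i k * x k + c i - (∑ k, M i k * centroid K k + c i))
          = ∑ k, M i k * (x k - centroid K k) := by
        simp only [mul_sub, Finset.sum_sub_distrib]
        ring
      have e2 : (∑ k, M j k * x k + c j - (∑ k, M j k * centroid K k + c j))
          = ∑ k, M j k * (x k - centroid K k) := by
        simp only [mul_sub, Finset.sum_sub_distrib]
        ring
      rw [e1, e2, Finset.sum_mul_sum]
      refine Finset.sum_congr rfl fun k _ => Finset.sum_congr rfl fun l _ => ?_
      ring
    have hc1 : ∀ k l, Continuous (fun x : Fin n → ℝ =>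
        (M i k * M j l) * ((x k - centroid K k) * (x l - centroid K l))) :=
      fun k l => continuous_const.mul ((hX k).mul (hX l))
    have hc2 : ∀ k, Continuous (fun x : Fin n → ℝ =>
        ∑ l, (M i k * M j l) * ((x k - centroid K k) * (x l - centroid K l))) :=
      fun k => continuous_finsetSum _ fun l _ => hc1 k l
    rw [h1, avg_sum hK Finset.univ hc2]
    simp only [Matrix.mul_apply, Matrix.transpose_apply, Finset.sum_mul]
    rw [Finset.sum_comm]
    refine Finset.sum_congr rfl fun k _ => ?_
    rw [avg_sum hK Finset.univ (hc1 k)]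
    refine Finset.sum_congr rfl fun l _ => ?_
    rw [avg_const_mul, ← covMat_eq_avg]
    ring
  unfold fval
  rw [hcov, hvol, Matrix.det_mul, Matrix.det_mul, Matrix.det_transpose, mul_pow, hδ, sq_abs]
  have hvne : vol K ≠ 0 := hv.ne'
  field_simp

end affine

/-- All simplices have the same value of `det Σ / vol²`. -/
theorem fval_simplex_eq (q q' : Fin (n + 1) → Fin n → ℝ) (hq : AffineIndependent ℝ q)
    (hq' : AffineIndependent ℝ q') (hv : 0 < vol (convexHull ℝ (range q))) :
    fval (convexHull ℝ (range q')) = fval (convexHull ℝ (range q)) := by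
  classical
  have hcard : Fintype.card (Fin (n + 1)) = Module.finrank ℝ (Fin n → ℝ) + 1 := by simp
  have htop := hq.affineSpan_eq_top_iff_card_eq_finrank_add_one.2 hcard
  have htop' := hq'.affineSpan_eq_top_iff_card_eq_finrank_add_one.2 hcard
  let b : AffineBasis (Fin (n + 1)) ℝ (Fin n → ℝ) := ⟨q, hq, htop⟩
  let b' : AffineBasis (Fin (n + 1)) ℝ (Fin n → ℝ) := ⟨q', hq', htop'⟩
  let f : (Fin n → ℝ) ≃ₗ[ℝ] (Fin n → ℝ) := (b.basisOf 0).equiv (b'.basisOf 0) (Equiv.refl _)
  let c : Fin n → ℝ := q' 0 - f (q 0)
  have hf : ∀ i, f (q i) + c = q' i := by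
    intro i
    by_cases hi : i = 0
    · subst hi
      simp [c]
    · have h1 : f (b.basisOf 0 ⟨i, hi⟩) = b'.basisOf 0 ⟨i, hi⟩ := by
        show ((b.basisOf 0).equiv (b'.basisOf 0) (Equiv.refl _)) (b.basisOf 0 ⟨i, hi⟩) = _
        rw [Module.Basis.equiv_apply]
        rfl
      have h2 : b.basisOf 0 ⟨i, hi⟩ = q i - q 0 := by
        rw [AffineBasis.basisOf_apply]
        rfl
      have h3 : b'.basisOf 0 ⟨i, hi⟩ = q' i - q' 0 := by
        rw [AffineBasis.basisOf_apply]
        rfl
      rw [h2, h3, map_sub] at h1
      simp only [c]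
      have : f (q i) = f (q 0) + (q' i - q' 0) := by rw [← h1]; abel
      rw [this]
      abel
  have himg : (fun x => f x + c) '' convexHull ℝ (range q) = convexHull ℝ (range q') := by
    let Aff : (Fin n → ℝ) →ᵃ[ℝ] (Fin n → ℝ) :=
      f.toLinearMap.toAffineMap + AffineMap.const ℝ (Fin n → ℝ) c
    have hAff : ∀ x, Aff x = f x + c := fun x => rfl
    have h1 : (fun x => f x + c) = Aff := by
      funext x
      exact (hAff x).symm
    rw [h1, AffineMap.image_convexHull, ← range_comp]
    congr 2
    funext i
    simp only [Function.comp, hAff, hf]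
  rw [← himg]
  exact fval_affine_image ((finite_range q).isCompact_convexHull ℝ) hv f c

end Vale.Agent.P254
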