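import Mathlib

open MeasureTheory Set Matrix

namespace Vale.Agent.P254

variable {n : ℕ}

/-- Lebesgue volume of a subset of `ℝⁿ`, as a real number. -/
noncomputable def vol (K : Set (Fin n → ℝ)) : ℝ := (volume K).toReal

/-- The centroid of `K`. -/
noncomputable def centroid (K : Set (Fin n → ℝ)) : Fin n → ℝ :=
  fun i => (vol K)⁻¹ * ∫ x in K, x i

/-- The covariance matrix of the uniform distribution on `K`. -/
noncomputable def covMat (K : Set (Fin n → ℝ)) : Matrix (Fin n) (Fin n) ℝ :=
  Matrix.of fun i j => (vol K)⁻¹ * ∫ x in K, (x i - centroid K i) * (x j - centroid K j)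

/-- The isotropic constant `L_K = (det Σ_K / |K|²)^(1/(2n))`. -/
noncomputable def isoConstant (K : Set (Fin n → ℝ)) : ℝ :=
  ((covMat K).det / (vol K) ^ 2) ^ ((1 : ℝ) / (2 * (n : ℝ)))

/-- The affine invariant `det Σ_K / |K|²`. -/
noncomputable def fval (K : Set (Fin n → ℝ)) : ℝ := (covMat K).det / (vol K) ^ 2

/-! ### Coordinate shears -/

lemma coord_shear_mp {m : ℕ} (j : Fin (m + 1)) (γ : (Fin (m + 1) → ℝ) → ℝ) (hγ : Continuous γ)
    (hinv : ∀ (y : Fin (m + 1) → ℝ) (s : ℝ), γ (y + s • (Pi.single j 1 : Fin (m + 1) → ℝ)) = γ y) :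
    MeasurePreserving (fun y : Fin (m + 1) → ℝ => y + γ y • (Pi.single j 1 : Fin (m + 1) → ℝ))
      volume volume := by
  classical
  let e := MeasurableEquiv.piFinSuccAbove (fun _ : Fin (m + 1) => ℝ) j
  have he : MeasurePreserving e volume volume := volume_preserving_piFinSuccAbove (fun _ => ℝ) j
  let γ' : (Fin m → ℝ) → ℝ := fun v => γ (e.symm (0, v))
  have hγ' : Continuous γ' := by
    refine hγ.comp ?_
    have : Continuous (fun v : Fin m → ℝ => (e.symm ((0 : ℝ), v) : Fin (m + 1) → ℝ)) := by
      refine continuous_pi fun i => ?_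
      show Continuous (fun v : Fin m → ℝ => (Fin.insertNth j (0 : ℝ) v : Fin (m + 1) → ℝ) i)
      rcases Fin.eq_self_or_eq_succAbove j i with h | ⟨k, rfl⟩
      · subst h
        simp only [Fin.insertNth_apply_same]
        exact continuous_const
      · simp only [Fin.insertNth_apply_succAbove]
        exact continuous_apply k
    exact this
  -- the skew product
  let H : (Fin m → ℝ) × ℝ → (Fin m → ℝ) × ℝ := fun p => (id p.1, (fun v u => u + γ' v) p.1 p.2)
  have hH : MeasurePreserving H (volume.prod volume) (volume.prod volume) := by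
    refine MeasurePreserving.skew_product (μc := (volume : Measure ℝ)) (μd := (volume : Measure ℝ))
      (g := fun v u => u + γ' v) (MeasurePreserving.id (volume : Measure (Fin m → ℝ))) ?_ ?_
    · exact (measurable_snd.add (hγ'.measurable.comp measurable_fst))
    · refine Filter.Eventually.of_forall fun v => ?_
      exact map_add_right_eq_self (volume : Measure ℝ) (γ' v)
  have hs1 : MeasurePreserving (Prod.swap : ℝ × (Fin m → ℝ) → (Fin m → ℝ) × ℝ)
      (volume.prod volume) (volume.prod volume) := Measure.measurePreserving_swap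
  have hs2 : MeasurePreserving (Prod.swap : (Fin m → ℝ) × ℝ → ℝ × (Fin m → ℝ))
      (volume.prod volume) (volume.prod volume) := Measure.measurePreserving_swap
  have hG : MeasurePreserving (Prod.swap ∘ H ∘ Prod.swap : ℝ × (Fin m → ℝ) → ℝ × (Fin m → ℝ))
      volume volume := hs2.comp (hH.comp hs1)
  have hes : MeasurePreserving e.symm volume volume := he.symm e
  have hall : MeasurePreserving (e.symm ∘ (Prod.swap ∘ H ∘ Prod.swap) ∘ e) volume volume :=
    hes.comp (hG.comp he)
  convert hall using 1
  funext y
  -- compute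
  have h1 : e y = (y j, fun k => y (j.succAbove k)) := rfl
  have h2 : γ y = γ' (fun k => y (j.succAbove k)) := by
    have h3 : y = (e.symm ((0 : ℝ), fun k => y (j.succAbove k)) : Fin (m + 1) → ℝ)
        + (y j) • (Pi.single j 1 : Fin (m + 1) → ℝ) := by
      funext i
      show y i = (Fin.insertNth j (0 : ℝ) (fun k => y (j.succAbove k)) : Fin (m + 1) → ℝ) i
        + (y j) • (Pi.single j (1 : ℝ) : Fin (m + 1) → ℝ) i
      rcases Fin.eq_self_or_eq_succAbove j i with h | ⟨k, rfl⟩
      · subst h
        simp
      · have : j.succAbove k ≠ j := Fin.succAbove_ne j k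
        simp [this]
    show γ y = γ (e.symm ((0 : ℝ), fun k => y (j.succAbove k)))
    conv_lhs => rw [h3]
    exact hinv _ _
  apply e.injective
  simp only [Function.comp, MeasurableEquiv.apply_symm_apply]
  rw [h1]
  show e (y + γ y • (Pi.single j 1 : Fin (m + 1) → ℝ)) = _
  have h4 : e (y + γ y • (Pi.single j 1 : Fin (m + 1) → ℝ))
      = ((y + γ y • (Pi.single j 1 : Fin (m + 1) → ℝ)) j,
         fun k => (y + γ y • (Pi.single j 1 : Fin (m + 1) → ℝ)) (j.succAbove k)) := rfl
  rw [h4]
  refine Prod.ext ?_ ?_
  · simp [H, Prod.swap, h2]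
  · funext k
    have : j.succAbove k ≠ j := Fin.succAbove_ne j k
    simp [H, Prod.swap, this]

/-- Shears along a direction `d` by a function invariant along `d` preserve volume. -/
lemma shear_mp (d : Fin n → ℝ) (hd : d ≠ 0) (β : (Fin n → ℝ) → ℝ) (hβ : Continuous β)
    (hinv : ∀ (x : Fin n → ℝ) (s : ℝ), β (x + s • d) = β x) :
    MeasurePreserving (fun x : Fin n → ℝ => x + β x • d) volume volume := by
  classical
  cases n with
  | zero =>
    exact absurd (Subsingleton.elim d 0) hd
  | succ m =>
    obtain ⟨j, hj⟩ : ∃ j, d j ≠ 0 := by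
      by_contra h
      push Not at h
      exact hd (funext h)
    set ej : Fin (m + 1) → ℝ := Pi.single j 1 with hej
    have hejj : ej j = 1 := by simp [hej]
    let Ψ : (Fin (m + 1) → ℝ) ≃ₗ[ℝ] (Fin (m + 1) → ℝ) :=
      { toFun := fun y => y + (y j) • (d - ej)
        map_add' := by
          intro x y
          funext i
          simp only [Pi.add_apply, Pi.smul_apply, smul_eq_mul]
          ring
        map_smul' := by
          intro c x
          funext i
          simp only [Pi.add_apply, Pi.smul_apply, smul_eq_mul, RingHom.id_apply]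
          ring
        invFun := fun x => x - (x j / d j) • (d - ej)
        left_inv := by
          intro y
          funext i
          simp only [Pi.add_apply, Pi.smul_apply, smul_eq_mul, Pi.sub_apply, hejj]
          field_simp
          ring
        right_inv := by
          intro x
          funext i
          simp only [Pi.add_apply, Pi.smul_apply, smul_eq_mul, Pi.sub_apply, hejj]
          field_simp
          ring }
    have hΨ : ∀ y, Ψ y = y + (y j) • (d - ej) := fun y => rfl
    have hΨe : Ψ ej = d := by
      rw [hΨ, hejj, one_smul]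
      abel
    have hΨc : Continuous Ψ := Ψ.toLinearMap.continuous_of_finiteDimensional
    have hΨsc : Continuous Ψ.symm := Ψ.symm.toLinearMap.continuous_of_finiteDimensional
    let γ : (Fin (m + 1) → ℝ) → ℝ := fun y => β (Ψ y)
    have hγ : Continuous γ := hβ.comp hΨc
    have hγinv : ∀ (y : Fin (m + 1) → ℝ) (s : ℝ), γ (y + s • ej) = γ y := by
      intro y s
      show β (Ψ (y + s • ej)) = β (Ψ y)
      rw [map_add, map_smul, hΨe]
      exact hinv _ _
    have hS := coord_shear_mp j γ hγ hγinv
    have hdet : LinearMap.det (Ψ.symm : (Fin (m + 1) → ℝ) →ₗ[ℝ] (Fin (m + 1) → ℝ)) ≠ 0 :=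
      (LinearEquiv.isUnit_det' Ψ.symm).ne_zero
    have hmap := Real.map_linearMap_volume_pi_eq_smul_volume_pi hdet
    set c := ENNReal.ofReal |(LinearMap.det (Ψ.symm : (Fin (m + 1) → ℝ) →ₗ[ℝ] _))⁻¹| with hc
    have hmap' : Measure.map Ψ.symm volume = c • (volume : Measure (Fin (m + 1) → ℝ)) := hmap
    refine ⟨?_, ?_⟩
    · exact (continuous_id.add ((hβ).smul continuous_const)).measurable
    · have hT : (fun x : Fin (m + 1) → ℝ => x + β x • d)
          = Ψ ∘ (fun y => y + γ y • ej) ∘ Ψ.symm := by
        funext x
        simp only [Function.comp]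
        rw [map_add, map_smul, hΨe, Ψ.apply_symm_apply]
        simp [γ]
      rw [hT, ← Measure.map_map hΨc.measurable (hS.measurable.comp hΨsc.measurable),
        ← Measure.map_map hS.measurable hΨsc.measurable, hmap', Measure.map_smul, hS.map_eq,
        ← hmap', Measure.map_map hΨc.measurable hΨsc.measurable]
      have : (⇑Ψ ∘ ⇑Ψ.symm) = id := by
        funext x
        simp
      rw [this, Measure.map_id]

end Vale.Agent.P254
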