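import Vale.Agent.P254.Moments

open MeasureTheory Set Matrix

namespace Vale.Agent.P254

variable {n : ℕ}

lemma hyperplane_null (a : Fin n → ℝ) (ha : a ≠ 0) (c : ℝ) :
    volume {x : Fin n → ℝ | ∑ i, a i * x i = c} = 0 := by
  classical
  let f : (Fin n → ℝ) →ₗ[ℝ] ℝ :=
    { toFun := fun x => ∑ i, a i * x i
      map_add' := by
        intro x y
        simp only [Pi.add_apply, mul_add, Finset.sum_add_distrib]
      map_smul' := by
        intro r x
        simp only [Pi.smul_apply, smul_eq_mul, RingHom.id_apply, Finset.mul_sum]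
        refine Finset.sum_congr rfl fun i _ => ?_
        ring }
  have hf : ∀ x, f x = ∑ i, a i * x i := fun x => rfl
  have hker : LinearMap.ker f ≠ ⊤ := by
    intro h
    have h1 : f a = 0 := by
      have : a ∈ LinearMap.ker f := by rw [h]; trivial
      exact this
    rw [hf] at h1
    have h2 : ∀ i ∈ Finset.univ, a i * a i = 0 := by
      intro i hi
      exact (Finset.sum_eq_zero_iff_of_nonneg (fun j _ => mul_self_nonneg _)).1 h1 i hi
    apply ha
    funext i
    simpa using h2 i (Finset.mem_univ i)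
  have hnull := Measure.addHaar_submodule (volume : Measure (Fin n → ℝ)) (LinearMap.ker f) hker
  by_cases hne : ({x : Fin n → ℝ | ∑ i, a i * x i = c}).Nonempty
  · obtain ⟨x₀, hx₀⟩ := hne
    have hx₀' : f x₀ = c := hx₀
    have : {x : Fin n → ℝ | ∑ i, a i * x i = c}
        = (fun x => x + (-x₀)) ⁻¹' (LinearMap.ker f : Set (Fin n → ℝ)) := by
      ext x
      simp only [mem_ofPred_eq, mem_preimage, SetLike.mem_coe, LinearMap.mem_ker]
      rw [map_add, map_neg, hx₀', hf]
      constructor
      · intro h; rw [h]; ring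
      · intro h; linarith
    rw [this, measure_preimage_add_right]
    exact hnull
  · rw [not_nonempty_iff_eq_empty.1 hne]
    simp

section moments
variable {K : Set (Fin n → ℝ)}

lemma vol_pos_of_interior (hK : IsCompact K) (hint : (interior K).Nonempty) : 0 < vol K := by
  have h1 : 0 < volume K :=
    lt_of_lt_of_le (isOpen_interior.measure_pos volume hint) (measure_mono interior_subset)
  exact ENNReal.toReal_pos h1.ne' hK.measure_lt_top.ne

lemma avg_sq_sum (hK : IsCompact K) (a : Fin n → ℝ) :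
    avg K (fun x => (∑ i, a i * (x i - centroid K i)) ^ 2) = a ⬝ᵥ (covMat K *ᵥ a) := by
  have hX : ∀ i : Fin n, Continuous (fun x : Fin n → ℝ => x i - centroid K i) :=
    fun i => (continuous_apply i).sub continuous_const
  have h : (fun x : Fin n → ℝ => (∑ i, a i * (x i - centroid K i)) ^ 2)
      = fun x => ∑ i, ∑ j, (a i * a j) * ((x i - centroid K i) * (x j - centroid K j)) := by
    funext x
    rw [sq, Finset.sum_mul_sum]
    refine Finset.sum_congr rfl fun i _ => Finset.sum_congr rfl fun j _ => ?_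
    ring
  rw [h]
  have hc : ∀ i j : Fin n, Continuous (fun x : Fin n → ℝ =>
      (a i * a j) * ((x i - centroid K i) * (x j - centroid K j))) :=
    fun i j => continuous_const.mul ((hX i).mul (hX j))
  have hc' : ∀ i : Fin n, Continuous (fun x : Fin n → ℝ =>
      ∑ j, (a i * a j) * ((x i - centroid K i) * (x j - centroid K j))) :=
    fun i => continuous_finsetSum _ fun j _ => hc i j
  rw [avg_sum hK Finset.univ hc']
  simp only [dotProduct, mulVec, Finset.mul_sum]
  refine Finset.sum_congr rfl fun i _ => ?_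
  rw [avg_sum hK Finset.univ (hc i)]
  refine Finset.sum_congr rfl fun j _ => ?_
  rw [avg_const_mul, ← covMat_eq_avg]
  ring

lemma setIntegral_sq_pos (hK : IsCompact K) {h : (Fin n → ℝ) → ℝ} (hh : Continuous h)
    (hpos : 0 < volume ({x | h x ≠ 0} ∩ K)) : 0 < ∫ x in K, h x ^ 2 := by
  rw [setIntegral_pos_iff_support_of_nonneg_ae
    (Filter.Eventually.of_forall fun x => sq_nonneg (h x)) (integrableOn_cont hK (hh.pow 2))]
  refine lt_of_lt_of_le hpos (measure_mono ?_)
  rintro x ⟨hx1, hx2⟩
  refine ⟨?_, hx2⟩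
  simp only [Function.mem_support]
  exact pow_ne_zero 2 hx1

lemma covMat_posDef (hK : IsCompact K) (hv : 0 < vol K) : (covMat K).PosDef := by
  refine Matrix.PosDef.of_dotProduct_mulVec_pos ?_ ?_
  · ext i j
    simp only [conjTranspose_apply, star_trivial]
    rw [covMat_eq_avg, covMat_eq_avg]
    congr 2
    funext x
    ring
  · intro a ha
    rw [star_trivial, ← avg_sq_sum hK]
    have hc : Continuous (fun x : Fin n → ℝ => ∑ i, a i * (x i - centroid K i)) :=
      continuous_finsetSum _ fun i _ => continuous_const.mul ((continuous_apply i).sub continuous_const)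
    have hvK : 0 < volume K := by
      by_contra h
      have : volume K = 0 := le_antisymm (not_lt.1 h) zero_le
      simp [vol, this] at hv
    have hnull : volume {x : Fin n → ℝ | ∑ i, a i * (x i - centroid K i) = 0} = 0 := by
      have := hyperplane_null a ha (∑ i, a i * centroid K i)
      convert this using 2
      ext x
      simp only [mem_ofPred_eq, mul_sub, Finset.sum_sub_distrib, sub_eq_zero]
    have hposm : 0 < volume ({x : Fin n → ℝ | (∑ i, a i * (x i - centroid K i)) ≠ 0} ∩ K) := by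
      have hsub : K ⊆ ({x : Fin n → ℝ | (∑ i, a i * (x i - centroid K i)) ≠ 0} ∩ K)
          ∪ {x : Fin n → ℝ | ∑ i, a i * (x i - centroid K i) = 0} := by
        intro x hx
        by_cases h0 : ∑ i, a i * (x i - centroid K i) = 0
        · exact Or.inr h0
        · exact Or.inl ⟨h0, hx⟩
      have h2 : volume K ≤ volume ({x : Fin n → ℝ | (∑ i, a i * (x i - centroid K i)) ≠ 0} ∩ K)
          + volume {x : Fin n → ℝ | ∑ i, a i * (x i - centroid K i) = 0} :=
        (measure_mono hsub).trans (measure_union_le _ _)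
      rw [hnull, add_zero] at h2
      exact lt_of_lt_of_le hvK h2
    have := setIntegral_sq_pos hK hc hposm
    unfold avg
    exact mul_pos (inv_pos.2 hv) this

/-- If the integral of a continuous square vanishes on a convex body, the function vanishes on it. -/
lemma eq_zero_of_integral_sq_eq_zero (hK : IsCompact K) (hconv : Convex ℝ K)
    (hint : (interior K).Nonempty) {h : (Fin n → ℝ) → ℝ} (hh : Continuous h)
    (h0 : ∫ x in K, h x ^ 2 = 0) {x₀ : Fin n → ℝ} (hx₀ : x₀ ∈ K) : h x₀ = 0 := by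
  by_contra hne
  have hU : IsOpen {x | h x ≠ 0} := isOpen_ne_fun hh continuous_const
  have hcl : x₀ ∈ closure (interior K) := by
    rw [hconv.closure_interior_eq_closure_of_nonempty_interior hint]
    exact subset_closure hx₀
  obtain ⟨y, hy1, hy2⟩ := mem_closure_iff.1 hcl _ hU hne
  have hopen : IsOpen ({x | h x ≠ 0} ∩ interior K) := hU.inter isOpen_interior
  have hpos : 0 < volume ({x | h x ≠ 0} ∩ interior K) := hopen.measure_pos volume ⟨y, hy1, hy2⟩
  have hpos' : 0 < volume ({x | h x ≠ 0} ∩ K) :=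
    lt_of_lt_of_le hpos (measure_mono (inter_subset_inter_right _ interior_subset))
  have := setIntegral_sq_pos hK hh hpos'
  linarith

end moments

/-- The determinant of a rank-two update. -/
lemma det_rank_two_update (C : Matrix (Fin n) (Fin n) ℝ) (hC : IsUnit C.det)
    (d w : Fin n → ℝ) (hsym : w ⬝ᵥ (C⁻¹ *ᵥ d) = d ⬝ᵥ (C⁻¹ *ᵥ w)) (t v : ℝ) :
    (C + (t • (vecMulVec w d + vecMulVec d w) + (t ^ 2 * v) • vecMulVec d d)).det
      = C.det * (1 + 2 * t * (d ⬝ᵥ (C⁻¹ *ᵥ w))
        + t ^ 2 * ((d ⬝ᵥ (C⁻¹ *ᵥ w)) ^ 2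
          + (d ⬝ᵥ (C⁻¹ *ᵥ d)) * (v - w ⬝ᵥ (C⁻¹ *ᵥ w)))) := by
  classical
  let U : Matrix (Fin n) (Fin 2) ℝ := Matrix.of fun i k => if k = 0 then d i else w i
  let V : Matrix (Fin 2) (Fin n) ℝ :=
    Matrix.of fun k j => if k = 0 then t ^ 2 * v * d j + t * w j else t * d j
  have h1 : t • (vecMulVec w d + vecMulVec d w) + (t ^ 2 * v) • vecMulVec d d = U * V := by
    ext i j
    simp [U, V, Matrix.mul_apply, Fin.sum_univ_two, vecMulVec_apply]
    ring
  have h2 : C + U * V = C * (1 + (C⁻¹ * U) * V) := by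
    rw [Matrix.mul_add, Matrix.mul_one, ← Matrix.mul_assoc, ← Matrix.mul_assoc,
      Matrix.mul_nonsing_inv C hC, Matrix.one_mul]
  rw [h1, h2, Matrix.det_mul, Matrix.det_one_add_mul_comm]
  congr 1
  rw [Matrix.det_fin_two]
  have hCU0 : ∀ j, (C⁻¹ * U) j 0 = (C⁻¹ *ᵥ d) j := by
    intro j
    simp [U, Matrix.mul_apply, mulVec, dotProduct]
  have hCU1 : ∀ j, (C⁻¹ * U) j 1 = (C⁻¹ *ᵥ w) j := by
    intro j
    simp [U, Matrix.mul_apply, mulVec, dotProduct]
  have e00 : (V * (C⁻¹ * U)) 0 0
      = t ^ 2 * v * (d ⬝ᵥ (C⁻¹ *ᵥ d)) + t * (w ⬝ᵥ (C⁻¹ *ᵥ d)) := by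
    rw [Matrix.mul_apply]
    simp only [hCU0, V, Matrix.of_apply, if_true, dotProduct, add_mul, Finset.sum_add_distrib,
      Finset.mul_sum, mul_assoc]
  have e01 : (V * (C⁻¹ * U)) 0 1
      = t ^ 2 * v * (d ⬝ᵥ (C⁻¹ *ᵥ w)) + t * (w ⬝ᵥ (C⁻¹ *ᵥ w)) := by
    rw [Matrix.mul_apply]
    simp only [hCU1, V, Matrix.of_apply, if_true, dotProduct, add_mul, Finset.sum_add_distrib,
      Finset.mul_sum, mul_assoc]
  have e10 : (V * (C⁻¹ * U)) 1 0 = t * (d ⬝ᵥ (C⁻¹ *ᵥ d)) := by
    rw [Matrix.mul_apply]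
    simp [hCU0, V, dotProduct, Finset.mul_sum, mul_assoc]
  have e11 : (V * (C⁻¹ * U)) 1 1 = t * (d ⬝ᵥ (C⁻¹ *ᵥ w)) := by
    rw [Matrix.mul_apply]
    simp [hCU1, V, dotProduct, Finset.mul_sum, mul_assoc]
  simp only [Matrix.add_apply, Matrix.one_apply_eq, Matrix.one_apply_ne (show (0 : Fin 2) ≠ 1 by decide),
    Matrix.one_apply_ne (show (1 : Fin 2) ≠ 0 by decide), e00, e01, e10, e11, hsym]
  ring

/-! ### The main convexity statement -/

section main
variable {K : Set (Fin n → ℝ)} {d : Fin n → ℝ} {β : (Fin n → ℝ) → ℝ}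

/-- Shearing along `d` multiplies `det Σ / vol²` by a quadratic polynomial in `t` with positive
leading coefficient, unless `β` is affine on `K`. -/
theorem fval_shear_lt (hK : IsCompact K) (hconv : Convex ℝ K) (hint : (interior K).Nonempty)
    (hd : d ≠ 0) (hβ : Continuous β) (hinv : ∀ (x : Fin n → ℝ) (s : ℝ), β (x + s • d) = β x)
    (hna : ¬ ∃ (a : Fin n → ℝ) (c : ℝ), ∀ x ∈ K, β x = c + ∑ i, a i * x i)
    {t₁ t₂ : ℝ} (h1 : t₁ < 0) (h2 : 0 < t₂) :
    fval K < max (fval (shear d β t₁ '' K)) (fval (shear d β t₂ '' K)) := by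
  classical
  have hv : 0 < vol K := vol_pos_of_interior hK hint
  set C := covMat K with hCdef
  have hPD : C.PosDef := covMat_posDef hK hv
  have hdetpos : 0 < C.det := hPD.det_pos
  have hU : IsUnit C.det := isUnit_iff_ne_zero.2 hdetpos.ne'
  have hIPD : C⁻¹.PosDef := hPD.inv
  set g : (Fin n → ℝ) → ℝ := fun x => β x - avg K β with hg
  have hgc : Continuous g := hβ.sub continuous_const
  have hX : ∀ i : Fin n, Continuous (fun x : Fin n → ℝ => x i - centroid K i) :=
    fun i => (continuous_apply i).sub continuous_const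
  set w : Fin n → ℝ := fun i => avg K (fun x => (x i - centroid K i) * g x) with hw
  set v : ℝ := avg K (fun x => g x ^ 2) with hvdef
  set A := C⁻¹ with hA
  set a : Fin n → ℝ := A *ᵥ w with ha
  have hAsym : Aᵀ = A := by
    have := hIPD.isHermitian
    ext i j
    have h3 := congrFun (congrFun this i) j
    simpa using h3
  have hsym : w ⬝ᵥ (A *ᵥ d) = d ⬝ᵥ (A *ᵥ w) := by
    rw [dotProduct_mulVec, dotProduct_comm, ← mulVec_transpose, hAsym]
  -- the residual
  have hCa : C *ᵥ a = w := by
    rw [ha, mulVec_mulVec, hA, Matrix.mul_nonsing_inv C hU, one_mulVec]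
  set S : (Fin n → ℝ) → ℝ := fun x => ∑ i, a i * (x i - centroid K i) with hS
  have hSc : Continuous S :=
    continuous_finsetSum _ fun i _ => continuous_const.mul (hX i)
  have hres : avg K (fun x => (g x - S x) ^ 2) = v - w ⬝ᵥ (A *ᵥ w) := by
    have hexp : (fun x => (g x - S x) ^ 2)
        = fun x => g x ^ 2 + ((-2) * (g x * S x) + S x ^ 2) := by
      funext x; ring
    have hgS : avg K (fun x => g x * S x) = a ⬝ᵥ w := by
      have : (fun x => g x * S x) = fun x => ∑ i, a i * ((x i - centroid K i) * g x) := by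
        funext x
        simp only [hS, Finset.mul_sum]
        refine Finset.sum_congr rfl fun i _ => ?_
        ring
      have hcc : ∀ i, Continuous (fun x : Fin n → ℝ => a i * ((x i - centroid K i) * g x)) :=
        fun i => continuous_const.mul ((hX i).mul hgc)
      rw [this, avg_sum hK Finset.univ hcc]
      simp only [dotProduct, hw]
      refine Finset.sum_congr rfl fun i _ => ?_
      rw [avg_const_mul]
    have hS2 : avg K (fun x => S x ^ 2) = a ⬝ᵥ w := by
      rw [← hCa]
      exact avg_sq_sum hK a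
    have c1 : Continuous (fun x => g x ^ 2) := hgc.pow 2
    have c2 : Continuous (fun x => (-2) * (g x * S x)) := continuous_const.mul (hgc.mul hSc)
    have c3 : Continuous (fun x => S x ^ 2) := hSc.pow 2
    have c4 : Continuous (fun x => (-2) * (g x * S x) + S x ^ 2) := c2.add c3
    rw [hexp, avg_add hK c1 c4, avg_add hK c2 c3, avg_const_mul, hgS, hS2, ← hvdef,
      dotProduct_comm a w]
    ring
  set R : ℝ := v - w ⬝ᵥ (A *ᵥ w) with hR
  have hRnn : 0 ≤ R := by
    rw [← hres]
    unfold avg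
    exact mul_nonneg (inv_nonneg.2 hv.le) (integral_nonneg fun x => sq_nonneg _)
  have hRpos : 0 < R := by
    refine lt_of_le_of_ne hRnn fun h0 => hna ?_
    have h3 : ∫ x in K, (g x - S x) ^ 2 = 0 := by
      have h4 : avg K (fun x => (g x - S x) ^ 2) = 0 := by rw [hres, ← h0]
      unfold avg at h4
      rcases mul_eq_zero.1 h4 with h5 | h5
      · exact absurd h5 (inv_pos.2 hv).ne'
      · exact h5
    refine ⟨a, avg K β - ∑ i, a i * centroid K i, fun x hx => ?_⟩
    have hc6 : Continuous (fun x => g x - S x) := hgc.sub hSc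
    have h6 : g x - S x = 0 := eq_zero_of_integral_sq_eq_zero hK hconv hint hc6 h3 hx
    have h7 : S x = ∑ i, a i * x i - ∑ i, a i * centroid K i := by
      simp only [hS, mul_sub, Finset.sum_sub_distrib]
    simp only [hg] at h6
    rw [h7] at h6
    linarith
  set κ : ℝ := d ⬝ᵥ (A *ᵥ d) with hκ
  have hκpos : 0 < κ := by
    have := hIPD.dotProduct_mulVec_pos hd
    simpa using this
  set α : ℝ := d ⬝ᵥ (A *ᵥ w) with hα
  have hformula : ∀ t : ℝ, fval (shear d β t '' K)
      = fval K * (1 + 2 * t * α + t ^ 2 * (α ^ 2 + κ * R)) := by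
    intro t
    have hmat : covMat (shear d β t '' K)
        = C + (t • (vecMulVec w d + vecMulVec d w) + (t ^ 2 * v) • vecMulVec d d) := by
      ext i j
      rw [covMat_shear hK hd hβ hinv]
      simp only [Matrix.add_apply, Matrix.smul_apply, smul_eq_mul, vecMulVec_apply]
      simp only [hw, hvdef, hg, hCdef]
      ring
    unfold fval
    rw [hmat, vol_shear_image hd hβ hinv, det_rank_two_update C hU d w hsym t v]
    ring
  have hfpos : 0 < fval K := div_pos hdetpos (pow_pos hv 2)
  have hQ : 0 < α ^ 2 + κ * R := by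
    have := mul_pos hκpos hRpos
    nlinarith [sq_nonneg α]
  by_contra hcon
  push Not at hcon
  have h3 := le_trans (le_max_left _ _) hcon
  have h4 := le_trans (le_max_right _ _) hcon
  rw [hformula] at h3 h4
  have h5 : 2 * t₁ * α + t₁ ^ 2 * (α ^ 2 + κ * R) ≤ 0 := by
    have : fval K * (2 * t₁ * α + t₁ ^ 2 * (α ^ 2 + κ * R)) ≤ 0 := by nlinarith
    exact nonpos_of_mul_nonpos_right this hfpos
  have h6 : 2 * t₂ * α + t₂ ^ 2 * (α ^ 2 + κ * R) ≤ 0 := by
    have : fval K * (2 * t₂ * α + t₂ ^ 2 * (α ^ 2 + κ * R)) ≤ 0 := by nlinarith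
    exact nonpos_of_mul_nonpos_right this hfpos
  set Q := α ^ 2 + κ * R with hQdef
  -- from `h5`: `2α + t₁ Q ≥ 0`; from `h6`: `2α + t₂ Q ≤ 0`.
  have h7 : 0 ≤ 2 * α + t₁ * Q := by
    by_contra hneg
    push Not at hneg
    have : t₁ * (2 * α + t₁ * Q) > 0 := mul_pos_of_neg_of_neg h1 hneg
    nlinarith
  have h8 : 2 * α + t₂ * Q ≤ 0 := by
    by_contra hneg
    push Not at hneg
    have : t₂ * (2 * α + t₂ * Q) > 0 := mul_pos h2 hneg
    nlinarith
  have h9 : (t₂ - t₁) * Q ≤ 0 := by nlinarith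
  have h10 : 0 < (t₂ - t₁) * Q := mul_pos (by linarith) hQ
  linarith

end main

end Vale.Agent.P254
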