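import Vale.Agent.P254.Affine

open MeasureTheory Set Matrix

set_option linter.unusedSectionVars false

namespace Vale.Agent.P254

variable {n : ℕ}

/-- The map sending weights to their total mass and barycentre. -/
noncomputable def evalMap (p : Fin (n + 2) → Fin n → ℝ) :
    (Fin (n + 2) → ℝ) →ₗ[ℝ] ℝ × (Fin n → ℝ) where
  toFun r := (∑ i, r i, ∑ i, r i • p i)
  map_add' := by
    intro r s
    simp only [Pi.add_apply, Finset.sum_add_distrib, add_smul, Prod.mk_add_mk]
  map_smul' := by
    intro c r
    simp only [Pi.smul_apply, smul_eq_mul, RingHom.id_apply, Prod.smul_mk, Finset.mul_sum, mul_smul,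
      Finset.smul_sum]

lemma evalMap_apply (p : Fin (n + 2) → Fin n → ℝ) (r : Fin (n + 2) → ℝ) :
    evalMap p r = (∑ i, r i, ∑ i, r i • p i) := rfl

lemma dep_iff_mem_ker {p : Fin (n + 2) → Fin n → ℝ} {l : Fin (n + 2) → ℝ} :
    Dep p l ↔ l ∈ LinearMap.ker (evalMap p) := by
  rw [LinearMap.mem_ker, evalMap_apply, Prod.mk_eq_zero]
  rfl

lemma evalMap_surjective {p : Fin (n + 2) → Fin n → ℝ}
    (hvol : 0 < vol (convexHull ℝ (range p))) : LinearMap.range (evalMap p) = ⊤ := by
  classical
  by_contra hne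
  obtain ⟨f, hf0, hle⟩ := Submodule.exists_le_ker_of_lt_top _ (lt_top_iff_ne_top.2 hne)
  let c : ℝ := f (1, 0)
  let a : Fin n → ℝ := fun k => f (0, Pi.single k 1)
  have hf : ∀ (u : ℝ) (x : Fin n → ℝ), f (u, x) = u * c + ∑ k, a k * x k := by
    intro u x
    have h1 : ((u, x) : ℝ × (Fin n → ℝ)) = u • ((1 : ℝ), (0 : Fin n → ℝ))
        + ∑ k, x k • ((0 : ℝ), (Pi.single k 1 : Fin n → ℝ)) := by
      refine Prod.ext ?_ ?_
      · simp [Prod.fst_sum]
      · funext i
        simp [Prod.snd_sum, Finset.sum_apply, Pi.single_apply]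
    rw [h1, map_add, map_smul, map_sum]
    simp only [map_smul, smul_eq_mul, c, a]
    congr 1
    refine Finset.sum_congr rfl fun k _ => ?_
    ring
  have hpi : ∀ i, c + ∑ k, a k * p i k = 0 := by
    intro i
    have h1 : ((1 : ℝ), p i) ∈ LinearMap.range (evalMap p) := by
      refine ⟨fun j => if j = i then 1 else 0, ?_⟩
      rw [evalMap_apply]
      simp [ite_smul]
    have h2 := hle h1
    rw [LinearMap.mem_ker, hf] at h2
    simpa using h2
  have ha : a ≠ 0 := by
    intro h0
    have hc : c = 0 := by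
      have := hpi 0
      simpa [h0] using this
    apply hf0
    ext x
    · have := hf 1 0
      simp [hc] at this
      simpa [hc] using this
    · have := hf 0 (Pi.single x 1)
      simp [h0] at this
      simpa [h0] using this
  have hsub : convexHull ℝ (range p) ⊆ {x | ∑ k, a k * x k = -c} := by
    refine convexHull_min ?_ ?_
    · rintro _ ⟨i, rfl⟩
      have := hpi i
      simp only [mem_ofPred_eq]
      linarith
    · intro x hx y hy s t _ _ hst
      simp only [mem_ofPred_eq] at hx hy ⊢
      have : ∑ k, a k * (s • x + t • y) k = s * ∑ k, a k * x k + t * ∑ k, a k * y k := by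
        simp only [Finset.mul_sum, ← Finset.sum_add_distrib]
        refine Finset.sum_congr rfl fun k _ => ?_
        simp only [Pi.add_apply, Pi.smul_apply, smul_eq_mul]
        ring
      rw [this, hx, hy]
      have h3 : s * -c + t * -c = -(s + t) * c := by ring
      rw [h3, hst]
      ring
  have h0 : volume (convexHull ℝ (range p)) = 0 :=
    measure_mono_null hsub (hyperplane_null a ha (-c))
  simp [vol, h0] at hvol

lemma exists_rho {p : Fin (n + 2) → Fin n → ℝ} (hvol : 0 < vol (convexHull ℝ (range p))) :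
    ∃ ρ : (Fin n → ℝ) → Fin (n + 2) → ℝ, Continuous ρ ∧ (∀ x, ∑ i, ρ x i = 1) ∧
      ∀ x, ∑ i, ρ x i • p i = x := by
  obtain ⟨g, hg⟩ := (evalMap p).exists_rightInverse_of_surjective (evalMap_surjective hvol)
  refine ⟨fun x => g (1, x), ?_, ?_, ?_⟩
  · have h1 : Continuous g := g.continuous_of_finiteDimensional
    exact h1.comp (continuous_const.prodMk continuous_id)
  · intro x
    have := congrArg Prod.fst (LinearMap.congr_fun hg ((1 : ℝ), x))
    simpa [evalMap_apply] using this
  · intro x
    have := congrArg Prod.snd (LinearMap.congr_fun hg ((1 : ℝ), x))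
    simpa [evalMap_apply] using this

lemma finrank_ker {p : Fin (n + 2) → Fin n → ℝ} (hvol : 0 < vol (convexHull ℝ (range p))) :
    Module.finrank ℝ (LinearMap.ker (evalMap p)) = 1 := by
  have h := LinearMap.finrank_range_add_finrank_ker (evalMap p)
  rw [evalMap_surjective hvol, finrank_top] at h
  simp at h
  omega

lemma exists_dep {p : Fin (n + 2) → Fin n → ℝ} (hvol : 0 < vol (convexHull ℝ (range p))) :
    ∃ l : Fin (n + 2) → ℝ, l ≠ 0 ∧ Dep p l := by
  obtain ⟨v, hv, -⟩ := finrank_eq_one_iff'.1 (finrank_ker hvol)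
  refine ⟨v, ?_, dep_iff_mem_ker.2 v.2⟩
  intro h
  exact hv (Subtype.ext h)

lemma ker_gen {p : Fin (n + 2) → Fin n → ℝ} (hvol : 0 < vol (convexHull ℝ (range p)))
    {l : Fin (n + 2) → ℝ} (hl0 : l ≠ 0) (hl : Dep p l) :
    ∀ δ, Dep p δ → ∃ s : ℝ, δ = s • l := by
  intro δ hδ
  obtain ⟨v, hv, hall⟩ := finrank_eq_one_iff'.1 (finrank_ker hvol)
  obtain ⟨c, hc⟩ := hall ⟨l, dep_iff_mem_ker.1 hl⟩
  obtain ⟨c', hc'⟩ := hall ⟨δ, dep_iff_mem_ker.1 hδ⟩
  have hc1 : c • (v : Fin (n + 2) → ℝ) = l := congrArg Subtype.val hc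
  have hc2 : c' • (v : Fin (n + 2) → ℝ) = δ := congrArg Subtype.val hc'
  have hc0 : c ≠ 0 := by
    intro h
    rw [h, zero_smul] at hc1
    exact hl0 hc1.symm
  refine ⟨c' / c, ?_⟩
  rw [← hc1, ← hc2, smul_smul]
  congr 1
  field_simp

lemma vol_pos_of_interior' {K : Set (Fin n → ℝ)} (hK : IsCompact K)
    (hint : (interior K).Nonempty) : 0 < vol K := vol_pos_of_interior hK hint

lemma interior_nonempty_of_vol_pos {K : Set (Fin n → ℝ)} (hK : IsCompact K) (hconv : Convex ℝ K)
    (hv : 0 < vol K) : (interior K).Nonempty := by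
  by_contra h
  rw [not_nonempty_iff_eq_empty] at h
  have h1 : frontier K = K := by
    rw [frontier, hK.isClosed.closure_eq, h, sdiff_empty]
  have h2 := hconv.addHaar_frontier (volume : Measure (Fin n → ℝ))
  rw [h1] at h2
  simp [vol, h2] at hv

section simplex

variable {p : Fin (n + 2) → Fin n → ℝ} {l : Fin (n + 2) → ℝ}

/-- If the dependency has a single negative coefficient, the polytope is a simplex. -/
lemma simplex_of_single_neg (hvol : 0 < vol (convexHull ℝ (range p))) (hl0 : l ≠ 0) (hl : Dep p l)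
    {b : Fin (n + 2)} (hb : l b < 0) (hne : ∀ i, i ≠ b → 0 ≤ l i) :
    AffineIndependent ℝ (fun j => p (b.succAbove j)) ∧
      convexHull ℝ (range (fun j => p (b.succAbove j))) = convexHull ℝ (range p) := by
  classical
  have hker := ker_gen hvol hl0 hl
  constructor
  · rw [affineIndependent_iff]
    intro s w hw0 hw1 e he
    set δ : Fin (n + 2) → ℝ := Fin.insertNth b (0 : ℝ) (fun j => if j ∈ s then w j else 0) with hδ
    have hδb : δ b = 0 := by simp [hδ]
    have hδs : ∀ j, δ (b.succAbove j) = if j ∈ s then w j else 0 := by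
      intro j
      simp [hδ]
    have hd : Dep p δ := by
      constructor
      · rw [Fin.sum_univ_succAbove _ b, hδb, zero_add]
        simp only [hδs, Finset.sum_ite_mem, Finset.univ_inter]
        exact hw0
      · rw [Fin.sum_univ_succAbove _ b, hδb, zero_smul, zero_add]
        simp only [hδs, ite_smul, zero_smul, Finset.sum_ite_mem, Finset.univ_inter]
        exact hw1
    obtain ⟨c, hc⟩ := hker δ hd
    have hc0 : c = 0 := by
      have h1 := congrFun hc b
      rw [hδb] at h1
      simp only [Pi.smul_apply, smul_eq_mul] at h1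
      rcases mul_eq_zero.1 h1.symm with h2 | h2
      · exact h2
      · exact absurd h2 hb.ne
    have h2 := congrFun hc (b.succAbove e)
    rw [hδs, if_pos he, hc0] at h2
    simpa using h2
  · apply subset_antisymm
    · apply convexHull_mono
      rintro _ ⟨j, rfl⟩
      exact mem_range_self _
    · apply convexHull_min _ (convex_convexHull ℝ _)
      rintro _ ⟨i, rfl⟩
      rcases Fin.eq_self_or_eq_succAbove b i with hib | ⟨j, rfl⟩
      · -- the point `p b` is a convex combination of the others
        rw [hib]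
        have h1 := hl.1
        have h2 := hl.2
        rw [Fin.sum_univ_succAbove _ b] at h1 h2
        rw [mem_convexHull_range_iff]
        refine ⟨fun j => l (b.succAbove j) / (- l b), ?_, ?_, ?_⟩
        · intro j
          exact div_nonneg (hne _ (Fin.succAbove_ne b j)) (by linarith)
        · rw [← Finset.sum_div]
          have : ∑ j, l (b.succAbove j) = - l b := by linarith
          rw [this]
          have h5 : (- l b) ≠ 0 := by linarith
          exact div_self h5
        · have h3 : ∑ j, l (b.succAbove j) • p (b.succAbove j) = - (l b • p b) :=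
            eq_neg_of_add_eq_zero_right h2
          have h4 : (- l b) ≠ 0 := by linarith
          simp only [div_eq_inv_mul, mul_smul, ← Finset.smul_sum, h3]
          rw [smul_neg, ← neg_smul, smul_smul]
          have hlb : l b ≠ 0 := hb.ne
          have h6 : -(-l b)⁻¹ * l b = 1 := by
            rw [inv_neg, neg_neg]
            exact inv_mul_cancel₀ hlb
          rw [h6, one_smul]
      · exact subset_convexHull ℝ _ (mem_range_self j)

end simplex

section induction

/-- The negative part of a dependency. -/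
noncomputable def negSet {ι : Type*} [Fintype ι] (l : ι → ℝ) : Finset ι :=
  Finset.univ.filter (fun i => l i < 0)

lemma mem_negSet {ι : Type*} [Fintype ι] {l : ι → ℝ} {i : ι} : i ∈ negSet l ↔ l i < 0 := by
  simp [negSet]

lemma dep_update {ι : Type*} [Fintype ι] [DecidableEq ι] {p : ι → Fin n → ℝ} {l : ι → ℝ}
    (hl : Dep p l) {a₁ b₁ b₂ : ι}
    (h1 : a₁ ≠ b₁) (h2 : a₁ ≠ b₂) (t : ℝ) :
    Dep (Function.update p a₁ (p a₁ + t • (p b₁ - p b₂)))
      (fun i => l i - (l a₁ * t) * eDiff b₁ b₂ i) := by
  constructor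
  · simp only [Finset.sum_sub_distrib, ← Finset.mul_sum, sum_eDiff, hl.1]
    ring
  · rw [sum_smul_update]
    simp only [sub_smul, mul_smul, Finset.sum_sub_distrib, ← Finset.smul_sum, sum_eDiff_smul, hl.2,
      zero_sub]
    simp [eDiff, h1, h2]

lemma pos_neg_update {ι : Type*} [Fintype ι] [DecidableEq ι] {l l' : ι → ℝ} {b b' : ι}
    (hbb' : b ≠ b') (hb : l b < 0) (hb' : l b' < 0) (h1 : l' b = 0) (h2 : l' b' = l b' + l b)
    (h3 : ∀ i, i ≠ b → i ≠ b' → l' i = l i) :
    posSet l' = posSet l ∧ negSet l' = (negSet l).erase b := by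
  constructor
  · ext i
    simp only [mem_posSet]
    by_cases hi : i = b
    · subst hi
      rw [h1]
      constructor <;> intro h <;> linarith
    · by_cases hi' : i = b'
      · subst hi'
        rw [h2]
        constructor <;> intro h <;> linarith
      · rw [h3 i hi hi']
  · ext i
    simp only [Finset.mem_erase, mem_negSet]
    by_cases hi : i = b
    · subst hi
      rw [h1]
      simp
    · by_cases hi' : i = b'
      · subst hi'
        rw [h2]
        constructor
        · intro _
          exact ⟨hi, hb'⟩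
        · intro _
          linarith
      · rw [h3 i hi hi']
        simp [hi]

/-- The main induction on the size of the negative part. -/
theorem fval_ind (F₀ : ℝ)
    (hF : ∀ q : Fin (n + 1) → Fin n → ℝ, AffineIndependent ℝ q →
      fval (convexHull ℝ (range q)) = F₀) (m : ℕ) :
    ∀ (p : Fin (n + 2) → Fin n → ℝ) (l : Fin (n + 2) → ℝ),
      0 < vol (convexHull ℝ (range p)) → l ≠ 0 → Dep p l → (negSet l).card = m + 1 →
      2 ≤ (posSet l).card →
      fval (convexHull ℝ (range p)) ≤ F₀ ∧ (1 ≤ m → fval (convexHull ℝ (range p)) < F₀) := by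
  classical
  induction m with
  | zero =>
    intro p l hvol hl0 hl hcard _
    obtain ⟨b, hb⟩ := Finset.card_eq_one.1 hcard
    have hbneg : l b < 0 := mem_negSet.1 (by rw [hb]; exact Finset.mem_singleton_self b)
    have hne : ∀ i, i ≠ b → 0 ≤ l i := by
      intro i hi
      by_contra hc
      have : i ∈ negSet l := mem_negSet.2 (not_le.1 hc)
      rw [hb] at this
      exact hi (Finset.mem_singleton.1 this)
    obtain ⟨h1, h2⟩ := simplex_of_single_neg hvol hl0 hl hbneg hne
    rw [← h2, hF _ h1]
    exact ⟨le_refl _, fun h => absurd h (by norm_num)⟩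
  | succ m ih =>
    intro p l hvol hl0 hl hcard hpos
    obtain ⟨b₁, hb₁, b₂, hb₂, hb₁₂⟩ := Finset.one_lt_card.1 (by omega : 1 < (negSet l).card)
    have hA : (posSet l).Nonempty := Finset.card_pos.1 (by omega)
    obtain ⟨a₁, ha₁⟩ := hA
    have hA : (posSet l).Nonempty := ⟨a₁, ha₁⟩
    obtain ⟨a₂, ha₂, ha₁₂⟩ : ∃ a₂ ∈ posSet l, a₁ ≠ a₂ := by
      obtain ⟨x, hx, y, hy, hxy⟩ := Finset.one_lt_card.1 (by omega : 1 < (posSet l).card)
      by_cases h : a₁ = x
      · exact ⟨y, hy, h ▸ hxy⟩
      · exact ⟨x, hx, h⟩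
    have hb₁n : l b₁ < 0 := mem_negSet.1 hb₁
    have hb₂n : l b₂ < 0 := mem_negSet.1 hb₂
    have hapos : 0 < l a₁ := mem_posSet.1 ha₁
    have hb₁p : b₁ ∉ posSet l := fun h => absurd (mem_posSet.1 h) (by linarith)
    have hb₂p : b₂ ∉ posSet l := fun h => absurd (mem_posSet.1 h) (by linarith)
    have hab₁ : a₁ ≠ b₁ := fun h => hb₁p (h ▸ ha₁)
    have hab₂ : a₁ ≠ b₂ := fun h => hb₂p (h ▸ ha₁)
    have hker := ker_gen hvol hl0 hl
    obtain ⟨ρ, hρc, hρ1, hρ2⟩ := exists_rho hvol
    set d := p b₁ - p b₂ with hd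
    have hd0 : d ≠ 0 := by
      intro h0
      have hdep : Dep p (eDiff b₁ b₂) := ⟨sum_eDiff b₁ b₂, by rw [sum_eDiff_smul, ← hd, h0]⟩
      obtain ⟨s, hs⟩ := hker _ hdep
      have h1 := congrFun hs a₁
      simp only [eDiff, hab₁, hab₂, if_false, sub_zero, Pi.smul_apply, smul_eq_mul] at h1
      have hs0 : s = 0 := by
        rcases mul_eq_zero.1 h1.symm with h2 | h2
        · exact h2
        · exact absurd h2 hapos.ne'
      have h2 := congrFun hs b₁
      simp [eDiff, hb₁₂, hs0] at h2
    set β := beta hA ρ a₁ with hβdef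
    have hβc : Continuous β := by
      have h1 : β = fun x => ρ x a₁ - kap l hA (ρ x) * l a₁ := by
        funext x
        simp only [hβdef, beta, canon_apply]
      rw [h1]
      exact ((continuous_apply a₁).comp hρc).sub ((continuous_kap hA hρc).mul continuous_const)
    have hinv : ∀ (x : Fin n → ℝ) (s : ℝ), β (x + s • d) = β x :=
      fun x s => beta_invariant hA hl hker hρ1 hρ2 hab₁ hab₂ hb₁p hb₂p x s
    -- the two extreme positions
    set t₁ := l b₁ / l a₁ with ht₁
    set t₂ := - l b₂ / l a₁ with ht₂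
    have ht₁n : t₁ < 0 := div_neg_of_neg_of_pos hb₁n hapos
    have ht₂p : 0 < t₂ := div_pos (by linarith) hapos
    have e₁ : l a₁ * t₁ = l b₁ := by
      rw [ht₁]; field_simp
    have e₂ : l a₁ * t₂ = - l b₂ := by
      rw [ht₂]; field_simp
    have hnonpos : ∀ i, i ∉ posSet l → l i ≤ 0 :=
      fun i hi => not_lt.1 fun h => hi (mem_posSet.2 h)
    have hneg₁ : ∀ i, i ∉ posSet l → l i - (l a₁ * t₁) * eDiff b₁ b₂ i ≤ 0 := by
      intro i hi
      rw [e₁]
      by_cases h1 : i = b₁
      · subst h1
        simp [eDiff, hb₁₂]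
      · by_cases h2 : i = b₂
        · subst h2
          simp only [eDiff, h1, if_false, if_true]
          linarith
        · simp only [eDiff, h1, h2, if_false, sub_zero, mul_zero]
          exact hnonpos i hi
    have hneg₂ : ∀ i, i ∉ posSet l → l i - (l a₁ * t₂) * eDiff b₁ b₂ i ≤ 0 := by
      intro i hi
      rw [e₂]
      by_cases h1 : i = b₁
      · subst h1
        simp only [eDiff, hb₁₂, if_false, if_true, sub_zero, mul_one]
        linarith
      · by_cases h2 : i = b₂
        · subst h2
          simp only [eDiff, h1, if_false, if_true]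
          linarith
        · simp only [eDiff, h1, h2, if_false, sub_zero, mul_zero]
          exact hnonpos i hi
    have hK : IsCompact (convexHull ℝ (range p)) := (finite_range p).isCompact_convexHull ℝ
    have hconv : Convex ℝ (convexHull ℝ (range p)) := convex_convexHull ℝ _
    have hint := interior_nonempty_of_vol_pos hK hconv hvol
    -- the images
    have himg₁ := shear_image hA hl hker hρ1 hρ2 ha₁ hab₁ hab₂ hb₁p hb₂p t₁ hneg₁
    have himg₂ := shear_image hA hl hker hρ1 hρ2 ha₁ hab₁ hab₂ hb₁p hb₂p t₂ hneg₂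
    rw [← hd, ← hβdef] at himg₁ himg₂
    have hlt := fval_shear_lt hK hconv hint hd0 hβc hinv
      (beta_not_affine hA hl hker hρ1 hρ2 ha₁ ha₂ ha₁₂) ht₁n ht₂p
    rw [himg₁, himg₂] at hlt
    -- the induction hypothesis at the two ends
    have hvol₁ : 0 < vol (convexHull ℝ (range (Function.update p a₁ (p a₁ + t₁ • d)))) := by
      rw [← himg₁, vol_shear_image hd0 hβc hinv]
      exact hvol
    have hvol₂ : 0 < vol (convexHull ℝ (range (Function.update p a₁ (p a₁ + t₂ • d)))) := by
      rw [← himg₂, vol_shear_image hd0 hβc hinv]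
      exact hvol
    have hdep₁ := dep_update hl hab₁ hab₂ t₁
    have hdep₂ := dep_update hl hab₁ hab₂ t₂
    rw [← hd] at hdep₁ hdep₂
    have hval : ∀ t a, a ∈ posSet l → l a - (l a₁ * t) * eDiff b₁ b₂ a = l a := by
      intro t a ha
      have h3 : a ≠ b₁ := fun h => hb₁p (h ▸ ha)
      have h4 : a ≠ b₂ := fun h => hb₂p (h ▸ ha)
      simp [eDiff, h3, h4]
    have hne₁ : (fun i => l i - (l a₁ * t₁) * eDiff b₁ b₂ i) ≠ 0 := by
      intro h
      have := congrFun h a₁
      simp only [hval t₁ a₁ ha₁, Pi.zero_apply] at this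
      linarith
    have hne₂ : (fun i => l i - (l a₁ * t₂) * eDiff b₁ b₂ i) ≠ 0 := by
      intro h
      have := congrFun h a₁
      simp only [hval t₂ a₁ ha₁, Pi.zero_apply] at this
      linarith
    have hpn₁ := pos_neg_update (l := l) (l' := fun i => l i - (l a₁ * t₁) * eDiff b₁ b₂ i)
      hb₁₂ hb₁n hb₂n (by simp [e₁, eDiff, hb₁₂]) (by simp [e₁, eDiff, hb₁₂.symm])
      (by intro i h1 h2; simp [eDiff, h1, h2])
    have hpn₂ := pos_neg_update (l := l) (l' := fun i => l i - (l a₁ * t₂) * eDiff b₁ b₂ i)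
      hb₁₂.symm hb₂n hb₁n (by simp [e₂, eDiff, hb₁₂.symm]) (by simp [e₂, eDiff, hb₁₂])
      (by intro i h1 h2; simp [eDiff, h1, h2])
    have hcard₁ : (negSet (fun i => l i - (l a₁ * t₁) * eDiff b₁ b₂ i)).card = m + 1 := by
      rw [hpn₁.2, Finset.card_erase_of_mem hb₁, hcard]
      rfl
    have hcard₂ : (negSet (fun i => l i - (l a₁ * t₂) * eDiff b₁ b₂ i)).card = m + 1 := by
      rw [hpn₂.2, Finset.card_erase_of_mem hb₂, hcard]
      rfl
    have hpos₁ : 2 ≤ (posSet (fun i => l i - (l a₁ * t₁) * eDiff b₁ b₂ i)).card := by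
      rw [hpn₁.1]; exact hpos
    have hpos₂ : 2 ≤ (posSet (fun i => l i - (l a₁ * t₂) * eDiff b₁ b₂ i)).card := by
      rw [hpn₂.1]; exact hpos
    have hle₁ := (ih _ _ hvol₁ hne₁ hdep₁ hcard₁ hpos₁).1
    have hle₂ := (ih _ _ hvol₂ hne₂ hdep₂ hcard₂ hpos₂).1
    have hfin : fval (convexHull ℝ (range p)) < F₀ := lt_of_lt_of_le hlt (max_le hle₁ hle₂)
    exact ⟨hfin.le, fun _ => hfin⟩

end induction

lemma fval_pos_of_convexHull {ι : Type*} [Fintype ι] {p : ι → Fin n → ℝ}
    (hvol : 0 < vol (convexHull ℝ (range p))) : 0 < fval (convexHull ℝ (range p)) := by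
  have hK : IsCompact (convexHull ℝ (range p)) := (finite_range p).isCompact_convexHull ℝ
  exact div_pos (covMat_posDef hK hvol).det_pos (pow_pos hvol 2)

/-- The main theorem on `det Σ / vol²`. -/
theorem fval_main (p : Fin (n + 2) → Fin n → ℝ)
    (hint : (interior (convexHull ℝ (range p))).Nonempty)
    (q : Fin (n + 1) → Fin n → ℝ) (hq : AffineIndependent ℝ q) :
    fval (convexHull ℝ (range p)) ≤ fval (convexHull ℝ (range q)) ∧
      (fval (convexHull ℝ (range p)) = fval (convexHull ℝ (range q)) →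
        ∃ q' : Fin (n + 1) → Fin n → ℝ, AffineIndependent ℝ q' ∧
          convexHull ℝ (range p) = convexHull ℝ (range q')) := by
  classical
  have hKp : IsCompact (convexHull ℝ (range p)) := (finite_range p).isCompact_convexHull ℝ
  have hKq : IsCompact (convexHull ℝ (range q)) := (finite_range q).isCompact_convexHull ℝ
  have hvolp : 0 < vol (convexHull ℝ (range p)) := vol_pos_of_interior hKp hint
  have hcard : Fintype.card (Fin (n + 1)) = Module.finrank ℝ (Fin n → ℝ) + 1 := by simp
  have hspan := hq.affineSpan_eq_top_iff_card_eq_finrank_add_one.2 hcard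
  have hintq : (interior (convexHull ℝ (range q))).Nonempty :=
    interior_convexHull_nonempty_iff_affineSpan_eq_top.2 hspan
  have hvolq : 0 < vol (convexHull ℝ (range q)) := vol_pos_of_interior hKq hintq
  set F₀ := fval (convexHull ℝ (range q)) with hF₀
  have hF : ∀ q' : Fin (n + 1) → Fin n → ℝ, AffineIndependent ℝ q' →
      fval (convexHull ℝ (range q')) = F₀ := fun q' hq' => fval_simplex_eq q q' hq hq' hvolq
  obtain ⟨l, hl0, hl⟩ := exists_dep hvolp
  -- both parts are nonempty
  have hnonzero : ∃ i, l i ≠ 0 := by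
    by_contra h
    push Not at h
    exact hl0 (funext h)
  have hsum := hl.1
  have hposne : (posSet l).Nonempty := by
    by_contra h
    rw [Finset.not_nonempty_iff_eq_empty] at h
    have h1 : ∀ i, l i ≤ 0 := fun i => not_lt.1 fun hi => by
      have : i ∈ posSet l := mem_posSet.2 hi
      rw [h] at this
      simp at this
    have h2 : ∀ i ∈ Finset.univ, l i = 0 :=
      (Finset.sum_eq_zero_iff_of_nonpos fun i _ => h1 i).1 hsum
    obtain ⟨i, hi⟩ := hnonzero
    exact hi (h2 i (Finset.mem_univ i))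
  have hnegne : (negSet l).Nonempty := by
    by_contra h
    rw [Finset.not_nonempty_iff_eq_empty] at h
    have h1 : ∀ i, 0 ≤ l i := fun i => not_lt.1 fun hi => by
      have : i ∈ negSet l := mem_negSet.2 hi
      rw [h] at this
      simp at this
    have h2 : ∀ i ∈ Finset.univ, l i = 0 :=
      (Finset.sum_eq_zero_iff_of_nonneg fun i _ => h1 i).1 hsum
    obtain ⟨i, hi⟩ := hnonzero
    exact hi (h2 i (Finset.mem_univ i))
  -- the simplex case
  have hsimp : ∀ l' : Fin (n + 2) → ℝ, l' ≠ 0 → Dep p l' → (negSet l').card = 1 →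
      fval (convexHull ℝ (range p)) ≤ F₀ ∧
      (fval (convexHull ℝ (range p)) = F₀ →
        ∃ q' : Fin (n + 1) → Fin n → ℝ, AffineIndependent ℝ q' ∧
          convexHull ℝ (range p) = convexHull ℝ (range q')) := by
    intro l' hl'0 hl' hc
    obtain ⟨b, hb⟩ := Finset.card_eq_one.1 hc
    have hbneg : l' b < 0 := mem_negSet.1 (by rw [hb]; exact Finset.mem_singleton_self b)
    have hne : ∀ i, i ≠ b → 0 ≤ l' i := by
      intro i hi
      by_contra hc'
      have : i ∈ negSet l' := mem_negSet.2 (not_le.1 hc')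
      rw [hb] at this
      exact hi (Finset.mem_singleton.1 this)
    obtain ⟨h1, h2⟩ := simplex_of_single_neg hvolp hl'0 hl' hbneg hne
    refine ⟨?_, fun _ => ⟨_, h1, h2.symm⟩⟩
    rw [← h2, hF _ h1]
  by_cases hB : (negSet l).card = 1
  · exact hsimp l hl0 hl hB
  by_cases hAc : (posSet l).card = 1
  · -- use the opposite dependency
    have hd' : Dep p (-l) := by
      constructor
      · simp [Finset.sum_neg_distrib, hl.1]
      · simp [Finset.sum_neg_distrib, hl.2]
    have hc' : (negSet (-l)).card = 1 := by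
      have : negSet (-l) = posSet l := by
        ext i
        simp [mem_negSet, mem_posSet]
      rw [this, hAc]
    exact hsimp (-l) (neg_ne_zero.2 hl0) hd' hc'
  · have hA2 : 2 ≤ (posSet l).card := by
      have := Finset.card_pos.2 hposne
      omega
    have hB2 : 2 ≤ (negSet l).card := by
      have := Finset.card_pos.2 hnegne
      omega
    obtain ⟨m, hm⟩ : ∃ m, (negSet l).card = m + 1 := ⟨(negSet l).card - 1, by omega⟩
    have hlt := (fval_ind F₀ hF m p l hvolp hl0 hl hm hA2).2 (by omega)
    exact ⟨hlt.le, fun h => absurd h hlt.ne⟩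

end Vale.Agent.P254
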