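import Vale.Agent.P254.Basic

open MeasureTheory Set Matrix

namespace Vale.Agent.P254

variable {n : ℕ}

/-- A shear along `d` with speed function `β`. -/
noncomputable def shear (d : Fin n → ℝ) (β : (Fin n → ℝ) → ℝ) (t : ℝ) (x : Fin n → ℝ) :
    Fin n → ℝ := x + (t * β x) • d

lemma shear_apply (d : Fin n → ℝ) (β : (Fin n → ℝ) → ℝ) (t : ℝ) (x : Fin n → ℝ) (i : Fin n) :
    shear d β t x i = x i + t * β x * d i := by
  simp [shear]

section shear
variable {d : Fin n → ℝ} {β : (Fin n → ℝ) → ℝ}

lemma shear_shear (hinv : ∀ (x : Fin n → ℝ) (s : ℝ), β (x + s • d) = β x) (t s : ℝ) (x : Fin n → ℝ) :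
    shear d β s (shear d β t x) = x + ((t + s) * β x) • d := by
  have h : β (shear d β t x) = β x := hinv _ _
  simp only [shear] at h ⊢
  rw [h, add_assoc, ← add_smul]
  congr 2
  ring

lemma continuous_shear (hβ : Continuous β) (t : ℝ) : Continuous (shear d β t) := by
  unfold shear
  exact continuous_id.add ((continuous_const.mul hβ).smul continuous_const)

/-- The shear as a homeomorphism. -/
noncomputable def shearHomeo (hβ : Continuous β)
    (hinv : ∀ (x : Fin n → ℝ) (s : ℝ), β (x + s • d) = β x) (t : ℝ) :
    (Fin n → ℝ) ≃ₜ (Fin n → ℝ) where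
  toFun := shear d β t
  invFun := shear d β (-t)
  left_inv := by
    intro x
    rw [shear_shear hinv]
    simp
  right_inv := by
    intro x
    rw [shear_shear hinv]
    simp
  continuous_toFun := continuous_shear hβ t
  continuous_invFun := continuous_shear hβ (-t)

lemma shear_measurePreserving (hd : d ≠ 0) (hβ : Continuous β)
    (hinv : ∀ (x : Fin n → ℝ) (s : ℝ), β (x + s • d) = β x) (t : ℝ) :
    MeasurePreserving (shear d β t) volume volume := by
  refine shear_mp d hd (fun x => t * β x) (continuous_const.mul hβ) ?_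
  intro x s
  simp only [hinv]

lemma integral_shear_image (hd : d ≠ 0) (hβ : Continuous β)
    (hinv : ∀ (x : Fin n → ℝ) (s : ℝ), β (x + s • d) = β x) (t : ℝ) (K : Set (Fin n → ℝ))
    (g : (Fin n → ℝ) → ℝ) :
    ∫ y in shear d β t '' K, g y = ∫ x in K, g (shear d β t x) := by
  have he : MeasurableEmbedding (shear d β t) := (shearHomeo hβ hinv t).measurableEmbedding
  have h := (shear_measurePreserving hd hβ hinv t).setIntegral_preimage_emb he g (shear d β t '' K)
  rw [← h, preimage_image_eq K he.injective]

lemma vol_shear_image (hd : d ≠ 0) (hβ : Continuous β)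
    (hinv : ∀ (x : Fin n → ℝ) (s : ℝ), β (x + s • d) = β x) (t : ℝ) (K : Set (Fin n → ℝ)) :
    vol (shear d β t '' K) = vol K := by
  have he : MeasurableEmbedding (shear d β t) := (shearHomeo hβ hinv t).measurableEmbedding
  have h := (shear_measurePreserving hd hβ hinv t).measure_preimage_emb he (shear d β t '' K)
  rw [preimage_image_eq K he.injective] at h
  simp only [vol]
  rw [h]

end shear

/-- The average of `f` on `K`. -/
noncomputable def avg (K : Set (Fin n → ℝ)) (f : (Fin n → ℝ) → ℝ) : ℝ :=
  (vol K)⁻¹ * ∫ x in K, f x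

section moments
variable {K : Set (Fin n → ℝ)}

lemma integrableOn_cont (hK : IsCompact K) {f : (Fin n → ℝ) → ℝ} (hf : Continuous f) :
    IntegrableOn f K := hf.continuousOn.integrableOn_compact hK

lemma avg_add (hK : IsCompact K) {f g : (Fin n → ℝ) → ℝ} (hf : Continuous f) (hg : Continuous g) :
    avg K (fun x => f x + g x) = avg K f + avg K g := by
  unfold avg
  rw [integral_add (integrableOn_cont hK hf) (integrableOn_cont hK hg)]
  ring

lemma avg_sub (hK : IsCompact K) {f g : (Fin n → ℝ) → ℝ} (hf : Continuous f) (hg : Continuous g) :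
    avg K (fun x => f x - g x) = avg K f - avg K g := by
  unfold avg
  rw [integral_sub (integrableOn_cont hK hf) (integrableOn_cont hK hg)]
  ring

lemma avg_const_mul (c : ℝ) (f : (Fin n → ℝ) → ℝ) :
    avg K (fun x => c * f x) = c * avg K f := by
  unfold avg
  rw [integral_const_mul]
  ring

lemma avg_sum (hK : IsCompact K) {ι : Type*} (s : Finset ι) {f : ι → (Fin n → ℝ) → ℝ}
    (hf : ∀ i, Continuous (f i)) :
    avg K (fun x => ∑ i ∈ s, f i x) = ∑ i ∈ s, avg K (f i) := by
  unfold avg
  rw [integral_finsetSum s (fun i _ => integrableOn_cont hK (hf i)), Finset.mul_sum]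

lemma centroid_eq_avg (i : Fin n) : centroid K i = avg K (fun x => x i) := rfl

lemma covMat_eq_avg (i j : Fin n) :
    covMat K i j = avg K (fun x => (x i - centroid K i) * (x j - centroid K j)) := rfl

lemma avg_const (hv : 0 < vol K) (c : ℝ) : avg K (fun _ => c) = c := by
  unfold avg
  rw [setIntegral_const]
  have h1 : volume.real K = vol K := rfl
  rw [h1, smul_eq_mul]
  field_simp

/-- The mean of `X_i` vanishes. -/
lemma avg_coord_sub (hK : IsCompact K) (hv : 0 < vol K) (i : Fin n) :
    avg K (fun x => x i - centroid K i) = 0 := by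
  rw [avg_sub hK (continuous_apply i) continuous_const, avg_const hv, centroid_eq_avg]
  simp

end moments

/-! ### Moments of a sheared body -/

section sheared
variable {K : Set (Fin n → ℝ)} {d : Fin n → ℝ} {β : (Fin n → ℝ) → ℝ}

lemma avg_shear_image (hd : d ≠ 0) (hβ : Continuous β)
    (hinv : ∀ (x : Fin n → ℝ) (s : ℝ), β (x + s • d) = β x) (t : ℝ)
    (g : (Fin n → ℝ) → ℝ) :
    avg (shear d β t '' K) g = avg K (fun x => g (shear d β t x)) := by
  unfold avg
  rw [integral_shear_image hd hβ hinv, vol_shear_image hd hβ hinv]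

lemma centroid_shear (hK : IsCompact K) (hd : d ≠ 0) (hβ : Continuous β)
    (hinv : ∀ (x : Fin n → ℝ) (s : ℝ), β (x + s • d) = β x) (t : ℝ) (i : Fin n) :
    centroid (shear d β t '' K) i = centroid K i + t * avg K β * d i := by
  rw [centroid_eq_avg, avg_shear_image hd hβ hinv]
  have h : (fun x : Fin n → ℝ => shear d β t x i) = fun x => x i + (t * d i) * β x := by
    funext x
    rw [shear_apply]
    ring
  have hc : Continuous (fun x : Fin n → ℝ => (t * d i) * β x) := continuous_const.mul hβ
  rw [h, avg_add hK (continuous_apply i) hc, avg_const_mul, centroid_eq_avg]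
  ring

lemma covMat_shear (hK : IsCompact K) (hd : d ≠ 0) (hβ : Continuous β)
    (hinv : ∀ (x : Fin n → ℝ) (s : ℝ), β (x + s • d) = β x) (t : ℝ) (i j : Fin n) :
    covMat (shear d β t '' K) i j = covMat K i j
      + t * (avg K (fun x => (x i - centroid K i) * (β x - avg K β)) * d j
        + d i * avg K (fun x => (x j - centroid K j) * (β x - avg K β)))
      + t ^ 2 * avg K (fun x => (β x - avg K β) ^ 2) * (d i * d j) := by
  rw [covMat_eq_avg, avg_shear_image hd hβ hinv]
  have hXi : Continuous (fun x : Fin n → ℝ => x i - centroid K i) :=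
    (continuous_apply i).sub continuous_const
  have hXj : Continuous (fun x : Fin n → ℝ => x j - centroid K j) :=
    (continuous_apply j).sub continuous_const
  have hg : Continuous (fun x : Fin n → ℝ => β x - avg K β) := hβ.sub continuous_const
  have h : (fun x : Fin n → ℝ => (shear d β t x i - centroid (shear d β t '' K) i)
        * (shear d β t x j - centroid (shear d β t '' K) j))
      = fun x => (x i - centroid K i) * (x j - centroid K j)
        + ((t * d j) * ((x i - centroid K i) * (β x - avg K β))
        + ((t * d i) * ((x j - centroid K j) * (β x - avg K β))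
        + (t ^ 2 * (d i * d j)) * (β x - avg K β) ^ 2)) := by
    funext x
    rw [centroid_shear hK hd hβ hinv, centroid_shear hK hd hβ hinv, shear_apply, shear_apply]
    ring
  have c0 : Continuous (fun x : Fin n → ℝ => (x i - centroid K i) * (x j - centroid K j)) :=
    hXi.mul hXj
  have c1 : Continuous (fun x : Fin n → ℝ => (t * d j) * ((x i - centroid K i) * (β x - avg K β))) :=
    continuous_const.mul (hXi.mul hg)
  have c2 : Continuous (fun x : Fin n → ℝ => (t * d i) * ((x j - centroid K j) * (β x - avg K β))) :=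
    continuous_const.mul (hXj.mul hg)
  have c3 : Continuous (fun x : Fin n → ℝ => (t ^ 2 * (d i * d j)) * (β x - avg K β) ^ 2) :=
    continuous_const.mul (hg.pow 2)
  have c23 : Continuous (fun x : Fin n → ℝ => (t * d i) * ((x j - centroid K j) * (β x - avg K β))
      + (t ^ 2 * (d i * d j)) * (β x - avg K β) ^ 2) := c2.add c3
  have c123 : Continuous (fun x : Fin n → ℝ => (t * d j) * ((x i - centroid K i) * (β x - avg K β))
      + ((t * d i) * ((x j - centroid K j) * (β x - avg K β))
      + (t ^ 2 * (d i * d j)) * (β x - avg K β) ^ 2)) := c1.add c23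
  rw [h, avg_add hK c0 c123, avg_add hK c1 c23, avg_add hK c2 c3,
    avg_const_mul, avg_const_mul, avg_const_mul, ← covMat_eq_avg]
  ring

end sheared

end Vale.Agent.P254
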