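import Vale.Agent.P254.Convexity

open MeasureTheory Set Matrix

set_option linter.unusedSectionVars false

namespace Vale.Agent.P254

variable {n : ℕ} {ι : Type*} [Fintype ι] [DecidableEq ι]

lemma mem_convexHull_range_iff (p : ι → Fin n → ℝ) (x : Fin n → ℝ) :
    x ∈ convexHull ℝ (range p) ↔
      ∃ r : ι → ℝ, (∀ i, 0 ≤ r i) ∧ ∑ i, r i = 1 ∧ ∑ i, r i • p i = x := by
  constructor
  · intro hx
    have hsub : convexHull ℝ (range p) ⊆
        {x | ∃ r : ι → ℝ, (∀ i, 0 ≤ r i) ∧ ∑ i, r i = 1 ∧ ∑ i, r i • p i = x} := by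
      refine convexHull_min ?_ ?_
      · rintro _ ⟨i, rfl⟩
        refine ⟨fun j => if j = i then 1 else 0, ?_, ?_, ?_⟩
        · intro j
          show 0 ≤ (if j = i then (1 : ℝ) else 0)
          split_ifs <;> norm_num
        · simp
        · simp [ite_smul]
      · rintro _ ⟨r, hr0, hr1, rfl⟩ _ ⟨r', hr0', hr1', rfl⟩ a b ha hb hab
        refine ⟨fun i => a * r i + b * r' i, ?_, ?_, ?_⟩
        · intro i
          exact add_nonneg (mul_nonneg ha (hr0 i)) (mul_nonneg hb (hr0' i))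
        · rw [Finset.sum_add_distrib, ← Finset.mul_sum, ← Finset.mul_sum, hr1, hr1']
          simpa using hab
        · simp only [add_smul, Finset.sum_add_distrib, Finset.smul_sum, smul_smul]
    exact hsub hx
  · rintro ⟨r, hr0, hr1, rfl⟩
    exact (convex_convexHull ℝ _).sum_mem (fun i _ => hr0 i) hr1
      (fun i _ => subset_convexHull ℝ _ (mem_range_self i))

/-- A linear dependency of the points `p` with total weight zero. -/
def Dep (p : ι → Fin n → ℝ) (l : ι → ℝ) : Prop :=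
  ∑ i, l i = 0 ∧ ∑ i, l i • p i = 0

/-- Indices with positive coefficient. -/
noncomputable def posSet (l : ι → ℝ) : Finset ι := Finset.univ.filter (fun i => 0 < l i)

lemma mem_posSet {l : ι → ℝ} {i : ι} : i ∈ posSet l ↔ 0 < l i := by
  simp [posSet]

/-- The largest multiple of `l` that can be removed from `r`, as measured on the positive part. -/
noncomputable def kap (l : ι → ℝ) (hA : (posSet l).Nonempty) (r : ι → ℝ) : ℝ :=
  (posSet l).inf' hA (fun a => r a / l a)

section kap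
variable {l : ι → ℝ} (hA : (posSet l).Nonempty)

lemma kap_le (r : ι → ℝ) {a : ι} (ha : a ∈ posSet l) : kap l hA r ≤ r a / l a :=
  Finset.inf'_le _ ha

lemma exists_kap (r : ι → ℝ) : ∃ a ∈ posSet l, kap l hA r = r a / l a :=
  Finset.exists_mem_eq_inf' hA _

lemma le_kap (r : ι → ℝ) {s : ℝ} (h : ∀ a ∈ posSet l, s ≤ r a / l a) : s ≤ kap l hA r :=
  Finset.le_inf' hA _ h

lemma kap_congr {r r' : ι → ℝ} (h : ∀ a ∈ posSet l, r a = r' a) : kap l hA r = kap l hA r' := by
  unfold kap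
  refine Finset.inf'_congr hA rfl fun a ha => ?_
  rw [h a ha]

lemma kap_add_smul (r : ι → ℝ) (s : ℝ) : kap l hA (r + s • l) = kap l hA r + s := by
  apply le_antisymm
  · obtain ⟨a, ha, hk⟩ := exists_kap hA r
    have hla : l a ≠ 0 := (mem_posSet.1 ha).ne'
    calc kap l hA (r + s • l) ≤ (r + s • l) a / l a := kap_le hA _ ha
      _ = kap l hA r + s := by
        rw [hk]
        simp only [Pi.add_apply, Pi.smul_apply, smul_eq_mul]
        field_simp
  · refine le_kap hA _ fun a ha => ?_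
    have hla : l a ≠ 0 := (mem_posSet.1 ha).ne'
    have h1 := kap_le hA r ha
    have h2 : (r + s • l) a / l a = r a / l a + s := by
      simp only [Pi.add_apply, Pi.smul_apply, smul_eq_mul]
      field_simp
    rw [h2]
    linarith

/-- The canonical representative of `r` modulo `l`. -/
noncomputable def canon (r : ι → ℝ) : ι → ℝ := r - kap l hA r • l

lemma canon_apply (r : ι → ℝ) (i : ι) : canon hA r i = r i - kap l hA r * l i := by
  simp [canon]

lemma canon_add_smul (r : ι → ℝ) (s : ℝ) : canon hA (r + s • l) = canon hA r := by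
  funext i
  rw [canon_apply, canon_apply, kap_add_smul]
  simp only [Pi.add_apply, Pi.smul_apply, smul_eq_mul]
  ring

lemma kap_nonneg {r : ι → ℝ} (hr : ∀ i, 0 ≤ r i) : 0 ≤ kap l hA r :=
  le_kap hA r fun a ha => div_nonneg (hr a) (mem_posSet.1 ha).le

lemma canon_nonneg {r : ι → ℝ} (hr : ∀ i, 0 ≤ r i) (i : ι) : 0 ≤ canon hA r i := by
  rw [canon_apply]
  by_cases hi : i ∈ posSet l
  · have h1 := kap_le hA r hi
    have hla : 0 < l i := mem_posSet.1 hi
    have h2 : kap l hA r * l i ≤ r i := (le_div_iff₀ hla).1 h1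
    linarith
  · have hla : l i ≤ 0 := not_lt.1 (fun h => hi (mem_posSet.2 h))
    have h1 := kap_nonneg hA hr
    have h2 := hr i
    nlinarith

lemma kap_eq_zero {r : ι → ℝ} (h1 : ∀ a ∈ posSet l, 0 ≤ r a) {a₀ : ι} (ha₀ : a₀ ∈ posSet l)
    (h0 : r a₀ = 0) : kap l hA r = 0 := by
  apply le_antisymm
  · have := kap_le hA r ha₀
    rwa [h0, zero_div] at this
  · exact le_kap hA r fun a ha => div_nonneg (h1 a ha) (mem_posSet.1 ha).le

lemma canon_eq_self {r : ι → ℝ} (h1 : ∀ a ∈ posSet l, 0 ≤ r a) {a₀ : ι} (ha₀ : a₀ ∈ posSet l)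
    (h0 : r a₀ = 0) : canon hA r = r := by
  funext i
  rw [canon_apply, kap_eq_zero hA h1 ha₀ h0]
  ring

lemma canon_min (r : ι → ℝ) : ∃ a ∈ posSet l, canon hA r a = 0 := by
  obtain ⟨a, ha, hk⟩ := exists_kap hA r
  refine ⟨a, ha, ?_⟩
  rw [canon_apply, hk]
  have hla : l a ≠ 0 := (mem_posSet.1 ha).ne'
  field_simp
  ring

lemma sum_canon {p : ι → Fin n → ℝ} (hl : Dep p l) (r : ι → ℝ) : ∑ i, canon hA r i = ∑ i, r i := by
  simp only [canon_apply, Finset.sum_sub_distrib, ← Finset.mul_sum, hl.1]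
  ring

lemma sum_canon_smul {p : ι → Fin n → ℝ} (hl : Dep p l) (r : ι → ℝ) :
    ∑ i, canon hA r i • p i = ∑ i, r i • p i := by
  simp only [canon_apply, sub_smul, Finset.sum_sub_distrib, mul_smul, ← Finset.smul_sum, hl.2]
  simp

lemma canon_eq_of_rep {p : ι → Fin n → ℝ} (hker : ∀ δ, Dep p δ → ∃ s : ℝ, δ = s • l)
    {r r' : ι → ℝ} (h1 : ∑ i, r i = ∑ i, r' i) (h2 : ∑ i, r i • p i = ∑ i, r' i • p i) :
    canon hA r = canon hA r' := by
  have hd : Dep p (r - r') := by
    constructor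
    · simp only [Pi.sub_apply, Finset.sum_sub_distrib, h1, sub_self]
    · simp only [Pi.sub_apply, sub_smul, Finset.sum_sub_distrib, h2, sub_self]
  obtain ⟨s, hs⟩ := hker _ hd
  have : r = r' + s • l := by
    rw [← hs]
    abel
  rw [this, canon_add_smul]

lemma continuous_kap {X : Type*} [TopologicalSpace X] {ρ : X → ι → ℝ} (hρ : Continuous ρ) :
    Continuous (fun x => kap l hA (ρ x)) := by
  unfold kap
  refine Continuous.finset_inf'_apply hA fun a _ => ?_
  exact ((continuous_apply a).comp hρ).div_const _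

end kap

lemma sum_smul_update (p : ι → Fin n → ℝ) (a : ι) (v : Fin n → ℝ) (c : ι → ℝ) :
    ∑ i, c i • (Function.update p a v) i = ∑ i, c i • p i + c a • (v - p a) := by
  have h : ∀ i, c i • (Function.update p a v) i
      = c i • p i + if i = a then c i • (v - p a) else 0 := by
    intro i
    by_cases hi : i = a
    · subst hi
      simp [smul_sub]
    · simp [hi]
  simp only [h, Finset.sum_add_distrib, Finset.sum_ite_eq', Finset.mem_univ, if_true]

/-- The speed function of the shear. -/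
noncomputable def beta {l : ι → ℝ} (hA : (posSet l).Nonempty) (ρ : (Fin n → ℝ) → ι → ℝ) (a₁ : ι)
    (x : Fin n → ℝ) : ℝ := canon hA (ρ x) a₁

/-- The elementary dependency `e_b₁ - e_b₂`. -/
def eDiff (b₁ b₂ : ι) : ι → ℝ := fun i => (if i = b₁ then 1 else 0) - (if i = b₂ then 1 else 0)

lemma sum_eDiff (b₁ b₂ : ι) : ∑ i, eDiff b₁ b₂ i = 0 := by
  simp [eDiff, Finset.sum_sub_distrib]

lemma sum_eDiff_smul (p : ι → Fin n → ℝ) (b₁ b₂ : ι) :
    ∑ i, eDiff b₁ b₂ i • p i = p b₁ - p b₂ := by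
  simp [eDiff, sub_smul, Finset.sum_sub_distrib, ite_smul]

section geometry
variable {p : ι → Fin n → ℝ} {l : ι → ℝ} (hA : (posSet l).Nonempty) (hl : Dep p l)
  (hker : ∀ δ, Dep p δ → ∃ s : ℝ, δ = s • l)
  {ρ : (Fin n → ℝ) → ι → ℝ}
  (hρ1 : ∀ x, ∑ i, ρ x i = 1) (hρ2 : ∀ x, ∑ i, ρ x i • p i = x)
  {a₁ b₁ b₂ : ι}

include hl hker hρ1 hρ2 in
lemma beta_eq_of_rep {r : ι → ℝ} {x : Fin n → ℝ} (h1 : ∑ i, r i = 1) (h2 : ∑ i, r i • p i = x) :
    beta hA ρ a₁ x = canon hA r a₁ := by
  unfold beta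
  rw [canon_eq_of_rep hA hker (r := ρ x) (r' := r) (by rw [hρ1, h1]) (by rw [hρ2, h2])]

include hl hker hρ1 hρ2 in
lemma beta_invariant (ha₁b₁ : a₁ ≠ b₁) (ha₁b₂ : a₁ ≠ b₂) (hb₁ : b₁ ∉ posSet l)
    (hb₂ : b₂ ∉ posSet l) (x : Fin n → ℝ) (s : ℝ) :
    beta hA ρ a₁ (x + s • (p b₁ - p b₂)) = beta hA ρ a₁ x := by
  set r := ρ x + s • eDiff b₁ b₂ with hr
  have h1 : ∑ i, r i = 1 := by
    simp only [hr, Pi.add_apply, Pi.smul_apply, smul_eq_mul, Finset.sum_add_distrib,
      ← Finset.mul_sum, sum_eDiff, hρ1]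
    ring
  have h2 : ∑ i, r i • p i = x + s • (p b₁ - p b₂) := by
    simp only [hr, Pi.add_apply, Pi.smul_apply, smul_eq_mul, add_smul, mul_smul,
      Finset.sum_add_distrib, ← Finset.smul_sum, sum_eDiff_smul, hρ2]
  rw [beta_eq_of_rep hA hl hker hρ1 hρ2 h1 h2]
  unfold beta
  rw [canon_apply, canon_apply]
  have hk : kap l hA r = kap l hA (ρ x) := by
    refine kap_congr hA fun a ha => ?_
    have h3 : a ≠ b₁ := fun h => hb₁ (h ▸ ha)
    have h4 : a ≠ b₂ := fun h => hb₂ (h ▸ ha)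
    simp [hr, eDiff, h3, h4]
  rw [hk]
  simp [hr, eDiff, ha₁b₁, ha₁b₂]

include hl hker hρ1 hρ2 in
/-- The image of the polytope under the shear is the polytope with the vertex `a₁` moved. -/
theorem shear_image (ha₁ : a₁ ∈ posSet l) (ha₁b₁ : a₁ ≠ b₁) (ha₁b₂ : a₁ ≠ b₂)
    (hb₁ : b₁ ∉ posSet l) (hb₂ : b₂ ∉ posSet l) (t : ℝ)
    (hneg : ∀ i, i ∉ posSet l → l i - (l a₁ * t) * eDiff b₁ b₂ i ≤ 0) :
    shear (p b₁ - p b₂) (beta hA ρ a₁) t '' convexHull ℝ (range p)
      = convexHull ℝ (range (Function.update p a₁ (p a₁ + t • (p b₁ - p b₂)))) := by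
  set d := p b₁ - p b₂ with hd
  set p' := Function.update p a₁ (p a₁ + t • d) with hp'
  have hsum : ∀ c : ι → ℝ, ∑ i, c i • p' i = ∑ i, c i • p i + (c a₁ * t) • d := by
    intro c
    rw [hp', sum_smul_update]
    congr 1
    rw [add_sub_cancel_left, mul_smul]
  ext y
  constructor
  · rintro ⟨x, hx, rfl⟩
    obtain ⟨r, hr0, hr1, hr2⟩ := (mem_convexHull_range_iff p x).1 hx
    set c := canon hA r with hc
    have hc0 : ∀ i, 0 ≤ c i := canon_nonneg hA hr0
    have hc1 : ∑ i, c i = 1 := by rw [hc, sum_canon hA hl, hr1]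
    have hc2 : ∑ i, c i • p i = x := by rw [hc, sum_canon_smul hA hl, hr2]
    have hb : beta hA ρ a₁ x = c a₁ := beta_eq_of_rep hA hl hker hρ1 hρ2 hr1 hr2
    rw [mem_convexHull_range_iff]
    refine ⟨c, hc0, hc1, ?_⟩
    rw [hsum, hc2]
    simp only [shear, hb]
    rw [mul_comm t]
  · intro hy
    obtain ⟨r, hr0, hr1, hr2⟩ := (mem_convexHull_range_iff p' y).1 hy
    -- the new dependency
    set lt : ι → ℝ := fun i => l i - (l a₁ * t) * eDiff b₁ b₂ i with hlt
    have hlta : ∀ a ∈ posSet l, lt a = l a := by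
      intro a ha
      have h3 : a ≠ b₁ := fun h => hb₁ (h ▸ ha)
      have h4 : a ≠ b₂ := fun h => hb₂ (h ▸ ha)
      simp [hlt, eDiff, h3, h4]
    have hlt1 : ∑ i, lt i = 0 := by
      simp only [hlt, Finset.sum_sub_distrib, ← Finset.mul_sum, sum_eDiff, hl.1]
      ring
    have hlt2 : ∑ i, lt i • p' i = 0 := by
      rw [hsum, hlta a₁ ha₁]
      simp only [hlt, sub_smul, mul_smul, Finset.sum_sub_distrib, ← Finset.smul_sum,
        sum_eDiff_smul, hl.2, zero_sub]
      rw [← hd]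
      simp
    set κ := kap l hA r with hκ
    have hκ0 : 0 ≤ κ := kap_nonneg hA hr0
    set r' : ι → ℝ := fun i => r i - κ * lt i with hr'
    have hr'0 : ∀ i, 0 ≤ r' i := by
      intro i
      by_cases hi : i ∈ posSet l
      · simp only [hr', hlta i hi]
        have h1 := kap_le hA r hi
        have hla : 0 < l i := mem_posSet.1 hi
        have h2 : κ * l i ≤ r i := (le_div_iff₀ hla).1 h1
        linarith
      · have h1 : lt i ≤ 0 := hneg i hi
        have h2 := hr0 i
        simp only [hr']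
        nlinarith
    have hr'1 : ∑ i, r' i = 1 := by
      simp only [hr', Finset.sum_sub_distrib, ← Finset.mul_sum, hlt1, hr1]
      ring
    have hr'2 : ∑ i, r' i • p' i = y := by
      simp only [hr', sub_smul, mul_smul, Finset.sum_sub_distrib, ← Finset.smul_sum, hlt2, hr2]
      simp
    set x := ∑ i, r' i • p i with hx
    have hxK : x ∈ convexHull ℝ (range p) :=
      (mem_convexHull_range_iff p x).2 ⟨r', hr'0, hr'1, rfl⟩
    refine ⟨x, hxK, ?_⟩
    -- `r'` is canonical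
    obtain ⟨a₀, ha₀, hk0⟩ := exists_kap hA r
    have hr'a₀ : r' a₀ = 0 := by
      simp only [hr', hlta a₀ ha₀, hκ, hk0]
      have hla : l a₀ ≠ 0 := (mem_posSet.1 ha₀).ne'
      field_simp
      ring
    have hcan : canon hA r' = r' := canon_eq_self hA (fun a _ => hr'0 a) ha₀ hr'a₀
    have hb : beta hA ρ a₁ x = r' a₁ := by
      rw [beta_eq_of_rep hA hl hker hρ1 hρ2 hr'1 rfl, hcan]
    simp only [shear, hb]
    rw [← hr'2, hsum, mul_comm t]

include hl hker hρ1 hρ2 in
/-- The speed function is not affine on the polytope. -/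
lemma beta_not_affine (ha₁ : a₁ ∈ posSet l) {a₂ : ι} (ha₂ : a₂ ∈ posSet l) (ha₁₂ : a₁ ≠ a₂) :
    ¬ ∃ (a : Fin n → ℝ) (c : ℝ), ∀ x ∈ convexHull ℝ (range p),
      beta hA ρ a₁ x = c + ∑ i, a i * x i := by
  rintro ⟨a, c, h⟩
  have hval : ∀ i, beta hA ρ a₁ (p i) = if i = a₁ then 1 else 0 := by
    intro i
    set e : ι → ℝ := fun j => if j = i then 1 else 0 with he
    have he1 : ∑ j, e j = 1 := by simp [he]
    have he2 : ∑ j, e j • p j = p i := by simp [he, ite_smul]
    have he0 : ∀ j, 0 ≤ e j := by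
      intro j
      simp only [he]
      split_ifs <;> norm_num
    rw [beta_eq_of_rep hA hl hker hρ1 hρ2 he1 he2]
    -- some element of the positive set is different from `i`
    obtain ⟨a₀, ha₀, hne⟩ : ∃ a₀ ∈ posSet l, a₀ ≠ i := by
      by_cases hi : a₁ = i
      · exact ⟨a₂, ha₂, fun h => ha₁₂ (hi.trans h.symm)⟩
      · exact ⟨a₁, ha₁, hi⟩
    have hz : e a₀ = 0 := by simp [he, hne]
    rw [canon_eq_self hA (fun j _ => he0 j) ha₀ hz]
    simp only [he]
    by_cases hi : i = a₁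
    · simp [hi]
    · have : a₁ ≠ i := fun h => hi h.symm
      simp [hi, this]
  have hmem : ∀ i, p i ∈ convexHull ℝ (range p) :=
    fun i => subset_convexHull ℝ _ (mem_range_self i)
  have h1 : ∑ i, l i * beta hA ρ a₁ (p i) = l a₁ := by
    simp [hval, mul_ite]
  have h2 : ∑ i, l i * beta hA ρ a₁ (p i) = 0 := by
    have h3 : ∀ i, l i * beta hA ρ a₁ (p i) = c * l i + ∑ k, a k * (l i * p i k) := by
      intro i
      rw [h _ (hmem i), mul_add, Finset.mul_sum, mul_comm (l i) c]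
      congr 1
      refine Finset.sum_congr rfl fun k _ => ?_
      ring
    simp only [h3, Finset.sum_add_distrib, ← Finset.mul_sum, hl.1, mul_zero, zero_add]
    rw [Finset.sum_comm]
    simp only [← Finset.mul_sum]
    have h4 : ∀ k, ∑ i, l i * p i k = 0 := by
      intro k
      have := congrFun hl.2 k
      simpa [Finset.sum_apply] using this
    simp [h4]
  have h5 := mem_posSet.1 ha₁
  linarith

end geometry

end Vale.Agent.P254
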